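import Mathlib

/-!
# S0076 (row 55) — log-spread lemma for group actions: definitions (helper68, coordinator)

Insurance package (conditional, no S-file).  Everything is stated for a finite group `G` acting
on a finite set `X` (in the application `G = Equiv.Perm (Fin n)`, `X = EdgeSlot n`).

* `inj G S B`   : number of `g : G` with `g • S ⊆ B`           ("embeddings of the pattern `S` in `B`")
* `stab G A`    : number of `g : G` with `g • A = A`
* `hits G Z B x`: number of `g : G` with `g • Z ⊆ B` and `x ∈ g • Z`
* the state-based transfer recursion `Aseq` (weighted number of `T`-step paths `U ↦ U ∪ g • Z`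
  ending in a given union `U`), with the code weights `qw` and their costs `cost`.

Paper source: notes/s0076_helper70_part2.md (Theorem A), notes/s0076_helper26_part2.md §2
(Theorem C'), rewritten without entropy in notes/s0076_helper68_blueprint.md.
-/

set_option autoImplicit false

namespace Crest.Agent.Helper68.S0076

open Finset
open scoped Pointwise

variable (G : Type*) {X : Type*} [Group G] [Fintype G] [Fintype X] [DecidableEq X] [MulAction G X]

/-- Number of group elements carrying the pattern `S` into the host `B`. -/
def inj (S B : Finset X) : ℕ := (Finset.univ.filter (fun g : G => g • S ⊆ B)).card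

/-- Size of the stabiliser of the set `A`. -/
def stab (A : Finset X) : ℕ := (Finset.univ.filter (fun g : G => g • A = A)).card

/-- Number of translates of `Z` inside `B` that pass through the point `x`. -/
def hits (Z B : Finset X) (x : X) : ℕ :=
  (Finset.univ.filter (fun g : G => g • Z ⊆ B ∧ x ∈ g • Z)).card

/-- `U` lies in some translate of `B`. -/
def Good (B U : Finset X) : Prop := ∃ g : G, U ⊆ g • B

/-- The set of all subsets of translates of `B`. -/
noncomputable def goodSet (B : Finset X) : Finset (Finset X) := by
  classical exact Finset.univ.filter (fun U => Good G B U)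

theorem mem_goodSet (B U : Finset X) : U ∈ goodSet G B ↔ Good G B U := by
  classical
  unfold goodSet
  simp

variable {G}

/-- Number of new points brought by the translate `g • Z` to the union `U`. -/
def knew (Z U : Finset X) (g : G) : ℕ := ((g • Z) \ U).card

/-- The code parameter: probability assigned to "a slot is new" when the union has `u` points.
`ν 0 = 1` (the first copy is entirely new), `ν u = ω (E - u) / m` afterwards. -/
noncomputable def nu (ω : ℝ) (E m u : ℕ) : ℝ :=
  if u = 0 then 1 else ω * ((E - u : ℕ) : ℝ) / (m : ℝ)

/-- The code weight of the step `U ↦ U ∪ g • Z`. -/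
noncomputable def qw (ω : ℝ) (E : ℕ) (Z U : Finset X) (g : G) : ℝ :=
  nu ω E Z.card U.card ^ knew Z U g * (1 - nu ω E Z.card U.card) ^ (Z.card - knew Z U g)

/-- The cost (`- log` of the code weight) of the step `U ↦ U ∪ g • Z`. -/
noncomputable def cost (ω : ℝ) (E : ℕ) (Z U : Finset X) (g : G) : ℝ :=
  (knew Z U g : ℝ) * Real.log (1 / nu ω E Z.card U.card)
    + ((Z.card : ℝ) - (knew Z U g : ℝ)) * Real.log (1 / (1 - nu ω E Z.card U.card))

/-- One step of the transfer operator: push the mass `f U * wt U g` from `U` to `U ∪ g • Z`. -/
noncomputable def push (Z : Finset X) (wt : Finset X → G → ℝ) (f : Finset X → ℝ) :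
    Finset X → ℝ :=
  fun U' => ∑ U : Finset X, ∑ g : G, if U ∪ g • Z = U' then f U * wt U g else 0

/-- Weighted number of `T`-step paths `∅ = U₀, U₁ = U₀ ∪ g₁ • Z, …` ending in a given set. -/
noncomputable def Aseq (Z : Finset X) (wt : Finset X → G → ℝ) : ℕ → Finset X → ℝ
  | 0 => fun U => if U = ∅ then 1 else 0
  | T + 1 => push Z wt (Aseq Z wt T)

variable (G)

/-- (Unweighted) number of `T`-step paths ending in a given set. -/
noncomputable def Cseq (Z : Finset X) : ℕ → Finset X → ℝ :=
  Aseq Z (fun (_ : Finset X) (_ : G) => (1 : ℝ))

/-- Total cost of the `T`-step paths ending in a given set. -/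
noncomputable def Lseq (ω : ℝ) (E : ℕ) (Z : Finset X) : ℕ → Finset X → ℝ
  | 0 => fun _ => 0
  | T + 1 => fun U' => ∑ U : Finset X, ∑ g : G,
      if U ∪ g • Z = U' then (Lseq ω E Z T U + Cseq G Z T U * cost ω E Z U g) else 0

/-- The potential `Φ(r) = r (log (e m / (ω r)) + 1)` (`Φ 0 = 0`). -/
noncomputable def Phi (ω : ℝ) (m : ℕ) (r : ℝ) : ℝ :=
  r * (Real.log (Real.exp 1 * (m : ℝ) / (ω * r)) + 1)

end Crest.Agent.Helper68.S0076
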