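import Crest.Agent.Helper68.S0076.Defs
import Crest.Agent.Helper68.PP.GraphScaled

/-!
# S0076 log-spread lemma: the action of `Equiv.Perm (Fin n)` on the edge slots of `K_n`
-/

set_option autoImplicit false

namespace Crest.Agent.Helper68.S0076

open Finset Crest.CombinatoricsR.RandomGraph
open scoped Pointwise

/-- Permutations of the vertices act on the edge slots. -/
instance slotAction (n : ℕ) : MulAction (Equiv.Perm (Fin n)) (EdgeSlot n) where
  smul σ z := ⟨Sym2.map σ z.1, fun h => z.2 ((Sym2.isDiag_map σ.injective).1 h)⟩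
  one_smul z := by
    apply Subtype.ext
    show Sym2.map (⇑(1 : Equiv.Perm (Fin n))) z.1 = z.1
    have : (⇑(1 : Equiv.Perm (Fin n))) = id := rfl
    rw [this, Sym2.map_id]
    rfl
  mul_smul σ τ z := by
    apply Subtype.ext
    show Sym2.map (⇑(σ * τ)) z.1 = Sym2.map σ (Sym2.map τ z.1)
    rw [Sym2.map_map]
    rfl

theorem slot_smul_val {n : ℕ} (σ : Equiv.Perm (Fin n)) (z : EdgeSlot n) :
    (σ • z).1 = Sym2.map σ z.1 := rfl

end Crest.Agent.Helper68.S0076
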