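import Crest.Agent.Helper99.S0076.BW
import Crest.Agent.Helper42.S0076.TR
import Crest.Agent.Helper48.S0076.Stab
import Crest.Agent.Helper54.S0076.JE
import Crest.Agent.Helper73.S0076.Cover
import Crest.Agent.Helper91.S0076.PT
import Crest.Agent.Helper46.S0076.N

/-!
# S0076 log-spread lemma: Theorem AR (abstract Theorem A + (R3)) — assembly (helper68)

`pw` : the pointwise bound (feasibility of `B` + big-world count), and
`AR` : `E log(ϖ/p) ≤ log 2 + E (log (m/(ω E)) + 2)` for a feasible host `B`, a pattern `Z`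
satisfying (KB) and every point of `B` lying in at least an `ω`-fraction of the translates.
Leaves: helper99 (BW), helper42 (TR), helper48 (ST), helper54 (JE), helper73 (CV),
helper91 (PT), helper46 (N).  Insurance package for row 55: conditional, no S-file.
-/

set_option autoImplicit false

namespace Crest.Agent.Helper68.S0076

open Finset
open Crest.Agent.Helper99.S0076 (bigworld)
open Crest.Agent.Helper42.S0076 (qw_smul Aseq_smul)
open Crest.Agent.Helper48.S0076 (stab_count)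
open Crest.Agent.Helper54.S0076 (jensen)
open Crest.Agent.Helper73.S0076 (cover)
open Crest.Agent.Helper91.S0076 (sum_hits potential)
open Crest.Agent.Helper46.S0076 (qw_nonneg Aseq_nonneg)
open scoped Pointwise

variable {G : Type*} {X : Type*} [Group G] [Fintype G] [Fintype X] [DecidableEq X] [MulAction G X]

/-- **(PW)** the pointwise bound: feasibility of `B` + big-world count. -/
theorem pw (B Z : Finset X) (p ϖ ω : ℝ) (hp : 0 < p) (hϖ : 0 < ϖ) (hω : 0 ≤ ω)
    (hωE : ω * (B.card : ℝ) ≤ (Z.card : ℝ))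
    (hfeas : (stab G B : ℝ) ≤ 2 * (Fintype.card G : ℝ) * p ^ B.card)
    (hKB : ∀ S ⊆ Z, (inj G S B : ℝ) * ϖ ^ (Z.card - S.card) ≤ (inj G Z B : ℝ)) (T : ℕ) :
    Aseq Z (qw (G := G) ω B.card Z) T B * (ϖ / p) ^ B.card ≤ 2 * (inj G Z B : ℝ) ^ T := by
  classical
  set A := Aseq Z (qw (G := G) ω B.card Z) T with hA
  have hAnn : ∀ U, 0 ≤ A U := fun U =>
    Aseq_nonneg Z _ (fun U g => qw_nonneg ω B.card Z U g hω hωE) T U
  have hcardG : (0 : ℝ) < (Fintype.card G : ℝ) := by
    exact_mod_cast Fintype.card_pos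
  -- translation invariance
  have htr : ∀ g : G, ϖ ^ (g • B).card * A (g • B) = ϖ ^ B.card * A B := by
    intro g
    rw [Finset.card_smul_finset]
    congr 1
    exact Aseq_smul Z _ (fun g U τ => qw_smul ω B.card Z U g τ) g T B
  have h1 : (Fintype.card G : ℝ) * (ϖ ^ B.card * A B)
      = ∑ g : G, ϖ ^ (g • B).card * A (g • B) := by
    rw [Finset.sum_congr rfl (fun g _ => htr g), Finset.sum_const, Finset.card_univ, nsmul_eq_mul]
  have h2 : ∑ g : G, ϖ ^ (g • B).card * A (g • B)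
      ≤ (stab G B : ℝ) * ∑ U ∈ goodSet G B, ϖ ^ U.card * A U :=
    stab_count B (fun U => ϖ ^ U.card * A U)
      (fun U _ => mul_nonneg (pow_nonneg hϖ.le _) (hAnn U))
  have h3 : ∑ U ∈ goodSet G B, ϖ ^ U.card * A U ≤ (inj G Z B : ℝ) ^ T :=
    bigworld B Z ϖ ω hϖ hω hωE hKB T
  have hsum_nn : 0 ≤ ∑ U ∈ goodSet G B, ϖ ^ U.card * A U :=
    Finset.sum_nonneg (fun U _ => mul_nonneg (pow_nonneg hϖ.le _) (hAnn U))
  have hI : (0 : ℝ) ≤ (inj G Z B : ℝ) ^ T := by positivity
  have h4 : (Fintype.card G : ℝ) * (ϖ ^ B.card * A B)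
      ≤ 2 * (Fintype.card G : ℝ) * p ^ B.card * (inj G Z B : ℝ) ^ T := by
    calc (Fintype.card G : ℝ) * (ϖ ^ B.card * A B)
        ≤ (stab G B : ℝ) * ∑ U ∈ goodSet G B, ϖ ^ U.card * A U := h1 ▸ h2
      _ ≤ (2 * (Fintype.card G : ℝ) * p ^ B.card) * ∑ U ∈ goodSet G B, ϖ ^ U.card * A U :=
          mul_le_mul_of_nonneg_right hfeas hsum_nn
      _ ≤ (2 * (Fintype.card G : ℝ) * p ^ B.card) * (inj G Z B : ℝ) ^ T :=
          mul_le_mul_of_nonneg_left h3 (by positivity)
  have hpE : (0 : ℝ) < p ^ B.card := pow_pos hp _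
  rw [div_pow]
  have h5 : ϖ ^ B.card * A B ≤ 2 * p ^ B.card * (inj G Z B : ℝ) ^ T := by
    have := h4
    have h6 : (Fintype.card G : ℝ) * (ϖ ^ B.card * A B)
        ≤ (Fintype.card G : ℝ) * (2 * p ^ B.card * (inj G Z B : ℝ) ^ T) := by
      calc _ ≤ 2 * (Fintype.card G : ℝ) * p ^ B.card * (inj G Z B : ℝ) ^ T := h4
        _ = _ := by ring
    exact le_of_mul_le_mul_left h6 hcardG
  calc A B * (ϖ ^ B.card / p ^ B.card) = (ϖ ^ B.card * A B) / p ^ B.card := by ring
    _ ≤ (2 * p ^ B.card * (inj G Z B : ℝ) ^ T) / p ^ B.card :=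
        div_le_div_of_nonneg_right h5 hpE.le
    _ = 2 * (inj G Z B : ℝ) ^ T := by
        field_simp

theorem hits_le_inj (Z B : Finset X) (x : X) : hits G Z B x ≤ inj G Z B := by
  unfold hits inj
  apply Finset.card_le_card
  intro g hg
  rw [Finset.mem_filter] at hg ⊢
  exact ⟨hg.1, hg.2.1⟩

theorem Phi_eq (ω : ℝ) (m E : ℕ) (hω : 0 < ω) (hm : 0 < m) (hE : 0 < E) :
    Phi ω m (E : ℝ) = (E : ℝ) * (Real.log ((m : ℝ) / (ω * E)) + 2) := by
  unfold Phi
  have hmpos : (0 : ℝ) < (m : ℝ) := by exact_mod_cast hm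
  have hEpos : (0 : ℝ) < (E : ℝ) := by exact_mod_cast hE
  have hx : (0 : ℝ) < (m : ℝ) / (ω * E) := by positivity
  have : Real.exp 1 * (m : ℝ) / (ω * E) = Real.exp 1 * ((m : ℝ) / (ω * E)) := by ring
  rw [this, Real.log_mul (Real.exp_pos 1).ne' hx.ne', Real.log_exp]
  ring

/-- **Theorem AR** (abstract Theorem A + (R3)). -/
theorem AR (B Z : Finset X) (p ϖ ω : ℝ) (hp : 0 < p) (hϖ : 0 < ϖ) (hω : 0 < ω)
    (hZ : 0 < Z.card)
    (hfeas : (stab G B : ℝ) ≤ 2 * (Fintype.card G : ℝ) * p ^ B.card)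
    (hKB : ∀ S ⊆ Z, (inj G S B : ℝ) * ϖ ^ (Z.card - S.card) ≤ (inj G Z B : ℝ))
    (hinj : 0 < inj G Z B)
    (hheavy : ∀ x ∈ B, ω * (inj G Z B : ℝ) ≤ (hits G Z B x : ℝ)) :
    (B.card : ℝ) * Real.log (ϖ / p)
      ≤ Real.log 2 + (B.card : ℝ) * (Real.log ((Z.card : ℝ) / (ω * B.card)) + 2) := by
  classical
  rcases Nat.eq_zero_or_pos B.card with hB0 | hBpos
  · rw [hB0]
    simp only [Nat.cast_zero, zero_mul, add_zero]
    exact Real.log_nonneg (by norm_num)
  set E := B.card with hE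
  set m := Z.card with hm
  set I : ℝ := (inj G Z B : ℝ) with hI
  have hIpos : 0 < I := by rw [hI]; exact_mod_cast hinj
  have hEpos : (0 : ℝ) < (E : ℝ) := by exact_mod_cast hBpos
  have hmpos : (0 : ℝ) < (m : ℝ) := by exact_mod_cast hZ
  have hhits_le : ∀ x, (hits G Z B x : ℝ) ≤ I := fun x => by
    rw [hI]; exact_mod_cast hits_le_inj Z B x
  -- ω E ≤ m
  have hωE : ω * (E : ℝ) ≤ (m : ℝ) := by
    have hs : (∑ x ∈ B, (hits G Z B x : ℝ)) = (m : ℝ) * I := by
      have := sum_hits (G := G) Z B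
      rw [hI, hm]
      exact_mod_cast this
    have hlow : (E : ℝ) * (ω * I) ≤ ∑ x ∈ B, (hits G Z B x : ℝ) := by
      have : ∑ _x ∈ B, (ω * I) ≤ ∑ x ∈ B, (hits G Z B x : ℝ) :=
        Finset.sum_le_sum (fun x hx => hheavy x hx)
      rwa [Finset.sum_const, nsmul_eq_mul] at this
    rw [hs] at hlow
    have : (ω * (E : ℝ)) * I ≤ (m : ℝ) * I := by nlinarith
    exact le_of_mul_le_mul_right this hIpos
  -- ω ≤ 1
  have hω1 : ω ≤ 1 := by
    obtain ⟨x, hx⟩ := Finset.card_pos.1 hBpos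
    have h1 := hheavy x hx
    have h2 := hhits_le x
    have : ω * I ≤ 1 * I := by linarith
    exact le_of_mul_le_mul_right this hIpos
  set Φ := Phi ω m (E : ℝ) with hΦ
  have hΦeq : Φ = (E : ℝ) * (Real.log ((m : ℝ) / (ω * E)) + 2) := Phi_eq ω m E hω hZ hBpos
  have hΦnn : 0 ≤ Φ := by
    rw [hΦeq]
    have h1 : (1 : ℝ) ≤ (m : ℝ) / (ω * E) := by
      rw [le_div_iff₀ (by positivity)]
      linarith
    have := Real.log_nonneg h1
    positivity
  set θ := ϖ / p with hθ
  have hθpos : 0 < θ := div_pos hϖ hp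
  -- the key inequality for every ε
  have key : ∀ ε : ℝ, 0 < ε → ε ≤ 1 / 2 →
      (E : ℝ) * Real.log θ ≤ Real.log 2 + Φ + 2 * ε * (1 + Φ) := by
    intro ε hε hε2
    -- choose T
    obtain ⟨T, hT⟩ : ∃ T : ℕ, (E : ℝ) * (1 - ω) ^ T ≤ ε := by
      have h0 : 0 ≤ 1 - ω := by linarith
      have h1 : 1 - ω < 1 := by linarith
      obtain ⟨T, hT⟩ := exists_pow_lt_of_lt_one (div_pos hε hEpos) h1
      refine ⟨T, ?_⟩
      have := (lt_div_iff₀ hEpos).1 hT
      linarith
    set C := Cseq G Z T B with hC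
    set L := Lseq G ω E Z T B with hL
    set A := Aseq Z (qw (G := G) ω E Z) T B with hA
    have hIT : 0 < I ^ T := pow_pos hIpos T
    -- coverage
    have hcov : (1 - ε) * I ^ T ≤ C := by
      have h1 := cover (G := G) B Z T
      have h2 : ∑ x ∈ B, (I - (hits G Z B x : ℝ)) ^ T ≤ ε * I ^ T := by
        have hterm : ∀ x ∈ B, (I - (hits G Z B x : ℝ)) ^ T ≤ (1 - ω) ^ T * I ^ T := by
          intro x hx
          rw [← mul_pow]
          apply pow_le_pow_left₀ (by linarith [hhits_le x])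
          have := hheavy x hx
          nlinarith
        calc ∑ x ∈ B, (I - (hits G Z B x : ℝ)) ^ T
            ≤ ∑ _x ∈ B, (1 - ω) ^ T * I ^ T := Finset.sum_le_sum hterm
          _ = (E : ℝ) * (1 - ω) ^ T * I ^ T := by
              rw [Finset.sum_const, nsmul_eq_mul]; ring
          _ ≤ ε * I ^ T := mul_le_mul_of_nonneg_right hT hIT.le
      have : I ^ T - ε * I ^ T ≤ C := by
        have h1' : I ^ T - ∑ x ∈ B, (I - (hits G Z B x : ℝ)) ^ T ≤ C := h1
        linarith
      linarith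
    have h1ε : 0 < 1 - ε := by linarith
    have hCpos : 0 < C := lt_of_lt_of_le (mul_pos h1ε hIT) hcov
    -- potential
    have hpot : L ≤ I ^ T * Φ := potential (G := G) B Z ω hω hZ hωE hinj hheavy T
    -- Jensen at lam = L / C
    have hje := jensen (G := G) B Z ω hω hωE hZ T B (Finset.Subset.refl B) (L / C)
    have hje' : Real.exp (-(L / C)) * C ≤ A := by
      have : (1 + L / C) * C - L = C := by
        field_simp
        ring
      rw [this] at hje
      exact hje
    -- pointwise bound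
    have hpw := pw (G := G) B Z p ϖ ω hp hϖ hω.le hωE hfeas hKB T
    have hθE : 0 < θ ^ E := pow_pos hθpos E
    have hmain : θ ^ E ≤ 2 * (I ^ T / C) * Real.exp (L / C) := by
      have h1 : Real.exp (-(L / C)) * C * θ ^ E ≤ 2 * I ^ T :=
        (mul_le_mul_of_nonneg_right hje' hθE.le).trans hpw
      have hexp : Real.exp (-(L / C)) = (Real.exp (L / C))⁻¹ := Real.exp_neg _
      rw [hexp] at h1
      have hepos : 0 < Real.exp (L / C) := Real.exp_pos _
      have h2 : θ ^ E * C ≤ 2 * I ^ T * Real.exp (L / C) := by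
        have h3 : (Real.exp (L / C))⁻¹ * C * θ ^ E * Real.exp (L / C)
            ≤ 2 * I ^ T * Real.exp (L / C) := mul_le_mul_of_nonneg_right h1 hepos.le
        have h4 : (Real.exp (L / C))⁻¹ * C * θ ^ E * Real.exp (L / C) = θ ^ E * C := by
          field_simp
        rw [h4] at h3
        exact h3
      have h5 : θ ^ E ≤ 2 * I ^ T * Real.exp (L / C) / C := by
        rw [le_div_iff₀ hCpos]
        exact h2
      calc θ ^ E ≤ 2 * I ^ T * Real.exp (L / C) / C := h5
        _ = 2 * (I ^ T / C) * Real.exp (L / C) := by ring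
    -- take logarithms
    have hratio_pos : 0 < I ^ T / C := div_pos hIT hCpos
    have hlog : (E : ℝ) * Real.log θ ≤ Real.log 2 + Real.log (I ^ T / C) + L / C := by
      have h1 : Real.log (θ ^ E) ≤ Real.log (2 * (I ^ T / C) * Real.exp (L / C)) :=
        Real.log_le_log hθE hmain
      rw [Real.log_pow, Real.log_mul (by positivity) (Real.exp_pos _).ne',
        Real.log_mul (by norm_num) hratio_pos.ne', Real.log_exp] at h1
      exact h1
    -- bounds on the two error terms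
    have hratio : I ^ T / C ≤ 1 / (1 - ε) := by
      rw [div_le_div_iff₀ hCpos h1ε]
      linarith
    have hlogratio : Real.log (I ^ T / C) ≤ 2 * ε := by
      have h1 : Real.log (I ^ T / C) ≤ Real.log (1 / (1 - ε)) :=
        Real.log_le_log hratio_pos hratio
      have h2 : 1 / (1 - ε) ≤ Real.exp (2 * ε) := by
        have h3 : 1 / (1 - ε) ≤ 1 + 2 * ε := by
          rw [div_le_iff₀ h1ε]
          nlinarith
        have h4 : 2 * ε + 1 ≤ Real.exp (2 * ε) := Real.add_one_le_exp _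
        linarith
      have h5 : Real.log (1 / (1 - ε)) ≤ 2 * ε := by
        have := Real.log_le_log (by positivity) h2
        rwa [Real.log_exp] at this
      linarith
    have hLC : L / C ≤ Φ * (1 + 2 * ε) := by
      have h1 : L / C ≤ I ^ T * Φ / C := div_le_div_of_nonneg_right hpot hCpos.le
      have h2 : I ^ T * Φ / C ≤ Φ * (1 / (1 - ε)) := by
        have : I ^ T * Φ / C = Φ * (I ^ T / C) := by ring
        rw [this]
        exact mul_le_mul_of_nonneg_left hratio hΦnn
      have h3 : 1 / (1 - ε) ≤ 1 + 2 * ε := by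
        rw [div_le_iff₀ h1ε]
        nlinarith
      have h4 : Φ * (1 / (1 - ε)) ≤ Φ * (1 + 2 * ε) := mul_le_mul_of_nonneg_left h3 hΦnn
      linarith
    have hexpand : Φ * (1 + 2 * ε) = Φ + 2 * ε * Φ := by ring
    have hexpand2 : 2 * ε * (1 + Φ) = 2 * ε + 2 * ε * Φ := by ring
    rw [hexpand] at hLC
    rw [hexpand2]
    linarith
  -- let ε → 0
  have hfin : (E : ℝ) * Real.log θ ≤ Real.log 2 + Φ := by
    apply le_of_forall_pos_le_add
    intro δ hδ
    set ε := min (1 / 2) (δ / (2 * (1 + Φ))) with hεdef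
    have hden : 0 < 2 * (1 + Φ) := by linarith
    have hεpos : 0 < ε := lt_min (by norm_num) (div_pos hδ hden)
    have hε2 : ε ≤ 1 / 2 := min_le_left _ _
    have hεδ : ε ≤ δ / (2 * (1 + Φ)) := min_le_right _ _
    have h1 := key ε hεpos hε2
    have h2 : 2 * ε * (1 + Φ) ≤ δ := by
      have := (le_div_iff₀ hden).1 hεδ
      linarith
    linarith
  rw [hΦeq] at hfin
  exact hfin

end Crest.Agent.Helper68.S0076
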