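import Crest.Agent.Helper68.S0076.Defs

/-!
# S0076 log-spread lemma: BLUEPRINT (leaf statements; `sorry` by design — NEVER import this file
from a proof file).  Prove the leaf with the SAME name and signature in
`Crest/Agent/<Seat>/S0076/<Leaf>.lean`, namespace `Crest.Agent.<Seat>.S0076`,
`import Crest.Agent.Helper68.S0076.Defs` and `open Crest.Agent.Helper68.S0076`.
Maths: notes/s0076_helper68_blueprint.md.
-/

set_option autoImplicit false

namespace Crest.Agent.Helper68.S0076.Blueprint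

open Finset Crest.Agent.Helper68.S0076
open scoped Pointwise

variable {G : Type*} {X : Type*} [Group G] [Fintype G] [Fintype X] [DecidableEq X] [MulAction G X]

/-! ## Leaf P: the transfer operator under a sum -/

theorem sum_mul_push (Z : Finset X) (wt : Finset X → G → ℝ) (f h : Finset X → ℝ) :
    ∑ U' : Finset X, h U' * push Z wt f U'
      = ∑ U : Finset X, ∑ g : G, h (U ∪ g • Z) * (f U * wt U g) := by
  sorry

/-! ## Leaf N: nonnegativity -/

theorem nu_mem (ω : ℝ) (E m u : ℕ) (hω : 0 ≤ ω) (hωE : ω * (E : ℝ) ≤ (m : ℝ)) :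
    0 ≤ nu ω E m u ∧ nu ω E m u ≤ 1 := by
  sorry

theorem qw_nonneg (ω : ℝ) (E : ℕ) (Z U : Finset X) (g : G) (hω : 0 ≤ ω)
    (hωE : ω * (E : ℝ) ≤ (Z.card : ℝ)) : 0 ≤ qw ω E Z U g := by
  sorry

theorem Aseq_nonneg (Z : Finset X) (wt : Finset X → G → ℝ) (hwt : ∀ U g, 0 ≤ wt U g)
    (T : ℕ) (U : Finset X) : 0 ≤ Aseq Z wt T U := by
  sorry

/-! ## Leaf BW: the big-world weighted count (one induction on `T`; binomial theorem + (KB)) -/

theorem bigworld (B Z : Finset X) (ϖ ω : ℝ) (hϖ : 0 < ϖ) (hω : 0 ≤ ω)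
    (hωE : ω * (B.card : ℝ) ≤ (Z.card : ℝ))
    (hKB : ∀ S ⊆ Z, (inj G S B : ℝ) * ϖ ^ (Z.card - S.card) ≤ (inj G Z B : ℝ)) (T : ℕ) :
    ∑ U ∈ goodSet G B, ϖ ^ U.card * Aseq Z (qw (G := G) ω B.card Z) T U
      ≤ (inj G Z B : ℝ) ^ T := by
  sorry

/-! ## Leaf TR: translation invariance -/

theorem qw_smul (ω : ℝ) (E : ℕ) (Z U : Finset X) (g τ : G) :
    qw ω E Z (g • U) (g * τ) = qw ω E Z U τ := by
  sorry

theorem Aseq_smul (Z : Finset X) (wt : Finset X → G → ℝ)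
    (hwt : ∀ (g : G) (U : Finset X) (τ : G), wt (g • U) (g * τ) = wt U τ)
    (g : G) (T : ℕ) (U : Finset X) : Aseq Z wt T (g • U) = Aseq Z wt T U := by
  sorry

/-! ## Leaf ST: every set is `g • B` for at most `stab B` elements `g` -/

theorem stab_count (B : Finset X) (f : Finset X → ℝ) (hf : ∀ U ∈ goodSet G B, 0 ≤ f U) :
    ∑ g : G, f (g • B) ≤ (stab G B : ℝ) * ∑ U ∈ goodSet G B, f U := by
  sorry

/-! ## Leaf JE: tangent-line (Jensen) induction -/

theorem jensen (B Z : Finset X) (ω : ℝ) (hω : 0 < ω) (hωE : ω * (B.card : ℝ) ≤ (Z.card : ℝ))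
    (hZ : 0 < Z.card) (T : ℕ) (U : Finset X) (hU : U ⊆ B) (lam : ℝ) :
    Real.exp (-lam) * ((1 + lam) * Cseq G Z T U - Lseq G ω B.card Z T U)
      ≤ Aseq Z (qw (G := G) ω B.card Z) T U := by
  sorry

/-! ## Leaf CV: coverage -/

theorem cover (B Z : Finset X) (T : ℕ) :
    (inj G Z B : ℝ) ^ T - ∑ x ∈ B, ((inj G Z B : ℝ) - (hits G Z B x : ℝ)) ^ T
      ≤ Cseq G Z T B := by
  sorry

theorem Cseq_nonneg (Z : Finset X) (T : ℕ) (U : Finset X) : 0 ≤ Cseq G Z T U := by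
  sorry

/-! ## Leaf PT: the potential (one-step supermartingale inequality) -/

theorem sum_hits (Z B : Finset X) :
    ∑ x ∈ B, hits G Z B x = Z.card * inj G Z B := by
  sorry

theorem potential (B Z : Finset X) (ω : ℝ) (hω : 0 < ω) (hZ : 0 < Z.card)
    (hωE : ω * (B.card : ℝ) ≤ (Z.card : ℝ)) (hinj : 0 < inj G Z B)
    (hheavy : ∀ x ∈ B, ω * (inj G Z B : ℝ) ≤ (hits G Z B x : ℝ)) (T : ℕ) :
    Lseq G ω B.card Z T B ≤ (inj G Z B : ℝ) ^ T * Phi ω Z.card (B.card : ℝ) := by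
  sorry

/-! ## Leaves for Theorem C' (elementary facts about `inj`, `stab`, and two real inequalities) -/

theorem inj_empty (B : Finset X) : inj G (∅ : Finset X) B = Fintype.card G := by
  sorry

/-- translating the pattern does not change the count -/
theorem inj_smul (S B : Finset X) (g : G) : inj G (g • S) B = inj G S B := by
  sorry

theorem card_filter_subset_smul (T H₀ : Finset X) :
    (Finset.univ.filter (fun g : G => T ⊆ g • H₀)).card = inj G T H₀ := by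
  sorry

theorem inj_erase (Z B : Finset X) (x : X) (hx : x ∈ B) :
    inj G Z (B.erase x) + hits G Z B x = inj G Z B := by
  sorry

theorem inj_mono (S B B' : Finset X) (h : B ⊆ B') : inj G S B ≤ inj G S B' := by
  sorry

theorem inj_eq_zero_of_card_lt (S B : Finset X) (h : B.card < S.card) : inj G S B = 0 := by
  sorry

theorem inj_le_stab_mul (Z B : Finset X) : inj G Z B ≤ stab G Z * 2 ^ B.card := by
  sorry

theorem stab_pos (A : Finset X) : 0 < stab G A := by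
  sorry

/-- `s ↦ (E/s)^s` is nondecreasing for `s ≤ E/e`. -/
theorem rpow_slots_mono (E m s : ℕ) (K : ℝ) (hK : 1 ≤ K) (hs : 1 ≤ s) (hsm : s ≤ m)
    (hmE : Real.exp 1 * (m : ℝ) ≤ (E : ℝ)) :
    ((E : ℝ) / s) ^ ((s : ℝ) / K) ≤ ((E : ℝ) / m) ^ ((m : ℝ) / K) := by
  sorry

/-- every point of an optimal host is heavy -/
theorem heavy_weight (E m : ℕ) (K : ℝ) (hK : 1 ≤ K) (hm : 1 ≤ m) (hmE : m ≤ E) (hE : 2 ≤ E) :
    (1 - Real.exp (-1)) * (m : ℝ) / (K * E)
      ≤ 1 - ((((E : ℝ) - 1) / m) / ((E : ℝ) / m)) ^ ((m : ℝ) / K) := by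
  sorry

theorem num_small : (2 : ℝ) ^ (Real.exp 1 + 1) < 14.8 := by
  sorry

theorem num_large (E : ℕ) (hE : 3 ≤ E) :
    Real.exp ((Real.log 2) / E + 2) / (1 - Real.exp (-1)) < 14.8 := by
  sorry

end Crest.Agent.Helper68.S0076.Blueprint
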