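import Crest.Agent.Helper68.S0076.GraphDefs

/-!
# S0076 log-spread lemma: BLUEPRINT of the graph-side glue leaves (`sorry` by design — NEVER
import this file from a proof file).  Same protocol as `Blueprint.lean`; these leaves import
`Crest.Agent.Helper68.S0076.GraphDefs` (which brings `PP.slotImage` and the action `slotAction`).
-/

set_option autoImplicit false

namespace Crest.Agent.Helper68.S0076.Blueprint

open Finset Crest.Agent.Helper68.S0076 Crest.Agent.Helper68 Crest.CombinatoricsR.RandomGraph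
open scoped Pointwise

variable {n : ℕ} {W : Type} [Fintype W] [DecidableEq W]

/-! ## Leaf GL1: embeddings versus permutations -/

theorem slotImage_trans (H : SimpleGraph W) [DecidableRel H.Adj] (f : W ↪ Fin n)
    (σ : Equiv.Perm (Fin n)) :
    PP.slotImage H (f.trans σ.toEmbedding) = σ • PP.slotImage H f := by
  sorry

theorem card_perm_embed (H : SimpleGraph W) [DecidableRel H.Adj] (f₀ : W ↪ Fin n)
    (T : Finset (EdgeSlot n)) :
    (Finset.univ.filter (fun σ : Equiv.Perm (Fin n) => T ⊆ σ • PP.slotImage H f₀)).card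
        * Fintype.card (W ↪ Fin n)
      = (Finset.univ.filter (fun f : W ↪ Fin n => T ⊆ PP.slotImage H f)).card * n.factorial := by
  sorry

/-! ## Leaf GL2: feasibility (hypothesis `hE` of S0076) in stabiliser form -/

theorem stab_le_of_hE (n : ℕ) (W : Type) [Fintype W] [DecidableEq W] (H : SimpleGraph W)
    [DecidableRel H.Adj] (p : ℝ) (hp0 : 0 ≤ p)
    (hE : ∀ F : H.Subgraph, (1 : ℝ) / 2 ≤
      Crest.CombinatoricsR.RandomGraph.gnpExpect n p (fun G => (G.copyCount F.coe : ℝ)))
    (f₀ : W ↪ Fin n) (A : Finset (EdgeSlot n)) (hA : A ⊆ PP.slotImage H f₀) :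
    (stab (Equiv.Perm (Fin n)) A : ℝ) ≤ 2 * (n.factorial : ℝ) * p ^ A.card := by
  sorry

/-! ## Leaf GL3: the numerical sum over dyadic scales -/

theorem sum_K_le (h : ℕ) (hh : 1 ≤ h) (hsmall : Nat.log 2 h + 4 ≤ 8 * 10 ^ 21) :
    ∑ j ∈ Finset.range (Nat.log 2 h + 1),
        41 * max 1 (Real.log (2 * (h : ℝ) / ((h / 2 ^ j : ℕ) : ℝ)))
      ≤ 32 * Real.exp 50 * (1 + Real.logb 2 (h : ℝ)) := by
  sorry

end Crest.Agent.Helper68.S0076.Blueprint
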