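import Crest.Agent.Helper68.S0076.AR
import Crest.Agent.Helper48.S0076.Inj
import Crest.Agent.Helper3.S0076.RE

/-!
# S0076 log-spread lemma: Theorem C' (penalised functional) — assembly (helper68)

`cprime` : if every subset `A` of `H₀` has `stab A ≤ 2 |G| p^|A|`, then for `K ≥ 1`, `θ > 14.8 K`
and all `B, Z ⊆ H₀`, `Z ≠ ∅`:  `inj Z B ≤ |G| (θ p)^m (E/m)^(m/K)`.
Maths: notes/s0076_helper26_part2.md §2 in `inj` form (notes/s0076_helper68_blueprint.md).
Leaves: helper48 (INJ), helper3 (RE).  Insurance package for row 55: conditional, no S-file.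
-/

set_option autoImplicit false

namespace Crest.Agent.Helper68.S0076

open Finset
open Crest.Agent.Helper48.S0076 (inj_empty inj_erase inj_eq_zero_of_card_lt inj_le_stab_mul)
open Crest.Agent.Helper3.S0076 (rpow_slots_mono heavy_weight num_small num_large)
open scoped Pointwise

variable {G : Type*} {X : Type*} [Group G] [Fintype G] [Fintype X] [DecidableEq X] [MulAction G X]

/-- the denominator of the penalised functional -/
noncomputable def Den (G : Type*) [Fintype G] {X : Type*} (θ p K : ℝ) (B Z : Finset X) : ℝ :=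
  (Fintype.card G : ℝ) * (θ * p) ^ Z.card * ((B.card : ℝ) / Z.card) ^ ((Z.card : ℝ) / K)

set_option maxHeartbeats 1000000 in
/-- **Theorem C'** (penalised functional). -/
theorem cprime (H₀ : Finset X) (p : ℝ) (hp : 0 < p)
    (hfeas : ∀ A ⊆ H₀, (stab G A : ℝ) ≤ 2 * (Fintype.card G : ℝ) * p ^ A.card)
    (K θ : ℝ) (hK : 1 ≤ K) (hθ : 14.8 * K < θ)
    (B Z : Finset X) (hB : B ⊆ H₀) (hZ : Z ⊆ H₀) (hZne : Z.Nonempty) :
    (inj G Z B : ℝ) ≤ Den G θ p K B Z := by
  classical
  by_contra hcon
  rw [not_le] at hcon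
  have hKpos : 0 < K := by linarith
  have hθpos : 0 < θ := by nlinarith
  have hθp : 0 < θ * p := mul_pos hθpos hp
  have hGpos : (0 : ℝ) < (Fintype.card G : ℝ) := by exact_mod_cast Fintype.card_pos
  have hDen_nn : ∀ B Z : Finset X, 0 ≤ Den G θ p K B Z := by
    intro B Z
    unfold Den
    have : 0 ≤ ((B.card : ℝ) / Z.card) ^ ((Z.card : ℝ) / K) :=
      Real.rpow_nonneg (by positivity) _
    positivity
  -- the set of admissible pairs
  set P : Finset (Finset X × Finset X) :=
    (H₀.powerset ×ˢ H₀.powerset).filter (fun q => q.2.Nonempty ∧ 0 < inj G q.2 q.1) with hP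
  have hmemP : ∀ B Z : Finset X, (B, Z) ∈ P ↔ B ⊆ H₀ ∧ Z ⊆ H₀ ∧ Z.Nonempty ∧ 0 < inj G Z B := by
    intro B Z
    rw [hP, Finset.mem_filter, Finset.mem_product, Finset.mem_powerset, Finset.mem_powerset]
    tauto
  have hinj0 : 0 < inj G Z B := by
    have : (0 : ℝ) < (inj G Z B : ℝ) := lt_of_le_of_lt (hDen_nn B Z) hcon
    exact_mod_cast this
  have hPne : P.Nonempty := ⟨(B, Z), (hmemP B Z).2 ⟨hB, hZ, hZne, hinj0⟩⟩
  set Ψ : Finset X × Finset X → ℝ := fun q => (inj G q.2 q.1 : ℝ) / Den G θ p K q.1 q.2 with hΨ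
  obtain ⟨⟨B', Z'⟩, hmem, hmax⟩ := Finset.exists_max_image P Ψ hPne
  obtain ⟨hB', hZ', hZ'ne, hinj'⟩ := (hmemP B' Z').1 hmem
  -- basic facts about an admissible pair
  have hpair : ∀ B Z : Finset X, (B, Z) ∈ P →
      0 < Z.card ∧ Z.card ≤ B.card ∧ 0 < Den G θ p K B Z ∧
        (Fintype.card G : ℝ) * (θ * p) ^ Z.card ≤ Den G θ p K B Z := by
    intro B Z hBZ
    obtain ⟨_, _, hne, hi⟩ := (hmemP B Z).1 hBZ
    have hm : 0 < Z.card := Finset.card_pos.2 hne
    have hmE : Z.card ≤ B.card := by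
      by_contra hlt
      rw [not_le] at hlt
      rw [inj_eq_zero_of_card_lt Z B hlt] at hi
      exact lt_irrefl _ hi
    have hmr : (0 : ℝ) < (Z.card : ℝ) := by exact_mod_cast hm
    have hone : (1 : ℝ) ≤ (B.card : ℝ) / Z.card := by
      rw [le_div_iff₀ hmr, one_mul]
      exact_mod_cast hmE
    have hrp : (1 : ℝ) ≤ ((B.card : ℝ) / Z.card) ^ ((Z.card : ℝ) / K) :=
      Real.one_le_rpow hone (by positivity)
    have hpos : 0 < (Fintype.card G : ℝ) * (θ * p) ^ Z.card := by positivity
    refine ⟨hm, hmE, ?_, ?_⟩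
    · unfold Den
      exact mul_pos hpos (lt_of_lt_of_le one_pos hrp)
    · unfold Den
      exact le_mul_of_one_le_right hpos.le hrp
  obtain ⟨hm0, hmE0, hD0, hD0'⟩ := hpair B Z ((hmemP B Z).2 ⟨hB, hZ, hZne, hinj0⟩)
  obtain ⟨hm, hmE, hD, hD'⟩ := hpair B' Z' hmem
  -- the maximum is > 1
  have hΨgt : 1 < Ψ (B', Z') := by
    have h1 : 1 < Ψ (B, Z) := by
      rw [hΨ]
      simp only
      rw [lt_div_iff₀ hD0, one_mul]
      exact hcon
    exact lt_of_lt_of_le h1 (hmax (B, Z) ((hmemP B Z).2 ⟨hB, hZ, hZne, hinj0⟩))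
  set m := Z'.card with hmdef
  set E := B'.card with hEdef
  set I : ℝ := (inj G Z' B' : ℝ) with hIdef
  have hIpos : 0 < I := by rw [hIdef]; exact_mod_cast hinj'
  have hID : Den G θ p K B' Z' < I := by
    have := hΨgt
    rw [hΨ] at this
    simp only at this
    rwa [lt_div_iff₀ hD, one_mul] at this
  have hmr : (0 : ℝ) < (m : ℝ) := by exact_mod_cast hm
  have hEr : (0 : ℝ) < (E : ℝ) := by
    have : 0 < E := lt_of_lt_of_le hm hmE
    exact_mod_cast this
  have hmEr : (m : ℝ) ≤ (E : ℝ) := by exact_mod_cast hmE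
  -- comparison with another admissible pair
  have hcmp : ∀ B Z : Finset X, (B, Z) ∈ P →
      (inj G Z B : ℝ) * Den G θ p K B' Z' ≤ I * Den G θ p K B Z := by
    intro B Z hBZ
    obtain ⟨_, _, hDBZ, _⟩ := hpair B Z hBZ
    have := hmax (B, Z) hBZ
    rw [hΨ] at this
    simp only at this
    rwa [div_le_div_iff₀ hDBZ hD] at this
  rcases lt_or_ge (E : ℝ) (Real.exp 1 * m) with hcase | hcase
  · -- Case E < e m
    have h1 : I ≤ (stab G Z' : ℝ) * 2 ^ E := by
      rw [hIdef]
      exact_mod_cast inj_le_stab_mul (G := G) Z' B'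
    have h2 : (stab G Z' : ℝ) ≤ 2 * (Fintype.card G : ℝ) * p ^ m := hfeas Z' hZ'
    have h3 : (Fintype.card G : ℝ) * (θ * p) ^ m < 2 * (Fintype.card G : ℝ) * p ^ m * 2 ^ E := by
      calc (Fintype.card G : ℝ) * (θ * p) ^ m ≤ Den G θ p K B' Z' := hD'
        _ < I := hID
        _ ≤ (stab G Z' : ℝ) * 2 ^ E := h1
        _ ≤ 2 * (Fintype.card G : ℝ) * p ^ m * 2 ^ E :=
            mul_le_mul_of_nonneg_right h2 (by positivity)
    have h4 : θ ^ m < 2 ^ (E + 1) := by
      have hpm : 0 < p ^ m := pow_pos hp m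
      rw [mul_pow] at h3
      have h5 : ((Fintype.card G : ℝ) * p ^ m) * θ ^ m
          < ((Fintype.card G : ℝ) * p ^ m) * 2 ^ (E + 1) := by
        calc ((Fintype.card G : ℝ) * p ^ m) * θ ^ m
            = (Fintype.card G : ℝ) * (θ ^ m * p ^ m) := by ring
          _ < 2 * (Fintype.card G : ℝ) * p ^ m * 2 ^ E := h3
          _ = ((Fintype.card G : ℝ) * p ^ m) * 2 ^ (E + 1) := by ring
      exact lt_of_mul_lt_mul_left h5 (by positivity)
    have hm0' : m ≠ 0 := hm.ne'
    have h6 : θ < (2 : ℝ) ^ (((E : ℝ) + 1) / m) := by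
      have h7 : θ = (θ ^ m) ^ ((m : ℝ)⁻¹) := (Real.pow_rpow_inv_natCast hθpos.le hm0').symm
      have h8 : ((2 : ℝ) ^ (E + 1)) ^ ((m : ℝ)⁻¹) = (2 : ℝ) ^ (((E : ℝ) + 1) / m) := by
        rw [← Real.rpow_natCast, ← Real.rpow_mul (by norm_num)]
        congr 1
        push_cast
        ring
      rw [h7, ← h8]
      exact Real.rpow_lt_rpow (pow_nonneg hθpos.le m) h4 (inv_pos.2 hmr)
    have h9 : ((E : ℝ) + 1) / m ≤ Real.exp 1 + 1 := by
      rw [div_le_iff₀ hmr]
      have : (1 : ℝ) ≤ (m : ℝ) := by exact_mod_cast hm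
      nlinarith [Real.exp_pos 1]
    have h10 : (2 : ℝ) ^ (((E : ℝ) + 1) / m) ≤ (2 : ℝ) ^ (Real.exp 1 + 1) :=
      Real.rpow_le_rpow_of_exponent_le (by norm_num) h9
    have h11 := num_small
    nlinarith
  · -- Case e m ≤ E
    have hE3 : 3 ≤ E := by
      have h1 : (2 : ℝ) < Real.exp 1 := by
        have := Real.exp_one_gt_d9
        linarith
      have h2 : (1 : ℝ) ≤ (m : ℝ) := by exact_mod_cast hm
      have h3 : (2 : ℝ) < (E : ℝ) := by nlinarith
      have : 2 < E := by exact_mod_cast h3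
      omega
    have hE2 : 2 ≤ E := by omega
    have hc : 0 < 1 - Real.exp (-1) := by
      have : Real.exp (-1) < 1 := by
        rw [Real.exp_lt_one_iff]
        norm_num
      linarith
    set ω : ℝ := (1 - Real.exp (-1)) * (m : ℝ) / (K * E) with hωdef
    have hωpos : 0 < ω := by rw [hωdef]; positivity
    have hω1 : ω ≤ 1 := by
      rw [hωdef, div_le_one (by positivity)]
      have h1 : 1 - Real.exp (-1) ≤ 1 := by linarith [Real.exp_pos (-1)]
      nlinarith
    -- heavy
    have hheavy : ∀ x ∈ B', ω * I ≤ (hits G Z' B' x : ℝ) := by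
      intro x hx
      have hsplit := inj_erase (G := G) Z' B' x hx
      have hsplitR : (inj G Z' (B'.erase x) : ℝ) + (hits G Z' B' x : ℝ) = I := by
        rw [hIdef]
        exact_mod_cast hsplit
      rcases Nat.eq_zero_or_pos (inj G Z' (B'.erase x)) with h0 | hpos
      · rw [h0] at hsplitR
        have : (hits G Z' B' x : ℝ) = I := by
          simpa using hsplitR
        rw [this]
        nlinarith
      · have hmemx : (B'.erase x, Z') ∈ P :=
          (hmemP _ _).2 ⟨(Finset.erase_subset x B').trans hB', hZ', hZ'ne, hpos⟩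
        have h1 := hcmp _ _ hmemx
        have hcardx : ((B'.erase x).card : ℝ) = (E : ℝ) - 1 := by
          rw [Finset.card_erase_of_mem hx, Nat.cast_sub (by omega), Nat.cast_one]
        have hDx : Den G θ p K (B'.erase x) Z'
            = Den G θ p K B' Z' * ((((E : ℝ) - 1) / m) / ((E : ℝ) / m)) ^ ((m : ℝ) / K) := by
          unfold Den
          rw [hcardx]
          have hE1 : (0 : ℝ) ≤ ((E : ℝ) - 1) / m := by
            have : (1 : ℝ) ≤ (E : ℝ) := by exact_mod_cast (by omega : 1 ≤ E)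
            apply div_nonneg <;> linarith
          have hEm : (0 : ℝ) < (E : ℝ) / m := by positivity
          rw [Real.div_rpow hE1 hEm.le]
          have hne : ((E : ℝ) / m) ^ ((m : ℝ) / K) ≠ 0 := (Real.rpow_pos_of_pos hEm _).ne'
          have hcancel : ((E : ℝ) / m) ^ ((m : ℝ) / K) *
              ((((E : ℝ) - 1) / m) ^ ((m : ℝ) / K) / ((E : ℝ) / m) ^ ((m : ℝ) / K))
              = (((E : ℝ) - 1) / m) ^ ((m : ℝ) / K) := by
            field_simp
          rw [mul_assoc ((Fintype.card G : ℝ) * (θ * p) ^ m), hcancel]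
        rw [hDx] at h1
        have h2 : (inj G Z' (B'.erase x) : ℝ)
            ≤ I * ((((E : ℝ) - 1) / m) / ((E : ℝ) / m)) ^ ((m : ℝ) / K) := by
          have h3 : (inj G Z' (B'.erase x) : ℝ) * Den G θ p K B' Z'
              ≤ (I * ((((E : ℝ) - 1) / m) / ((E : ℝ) / m)) ^ ((m : ℝ) / K)) * Den G θ p K B' Z' := by
            calc _ ≤ I * (Den G θ p K B' Z' *
                  ((((E : ℝ) - 1) / m) / ((E : ℝ) / m)) ^ ((m : ℝ) / K)) := h1
              _ = _ := by ring
          exact le_of_mul_le_mul_right h3 hD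
        have hw := heavy_weight E m K hK hm hmE hE2
        rw [← hωdef] at hw
        have h4 : I * ω ≤ I * (1 - ((((E : ℝ) - 1) / m) / ((E : ℝ) / m)) ^ ((m : ℝ) / K)) :=
          mul_le_mul_of_nonneg_left hw hIpos.le
        linarith
    -- (KB)
    have hKB : ∀ S ⊆ Z', (inj G S B' : ℝ) * (θ * p) ^ (m - S.card) ≤ I := by
      intro S hS
      rcases Finset.eq_empty_or_nonempty S with hSe | hSne
      · subst hSe
        rw [inj_empty, Finset.card_empty, Nat.sub_zero]
        exact (hD'.trans hID.le)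
      · rcases Nat.eq_zero_or_pos (inj G S B') with h0 | hpos
        · rw [h0]
          simp only [Nat.cast_zero, zero_mul]
          exact hIpos.le
        · have hmemS : (B', S) ∈ P := (hmemP _ _).2 ⟨hB', hS.trans hZ', hSne, hpos⟩
          have h1 := hcmp _ _ hmemS
          have hs1 : 1 ≤ S.card := Finset.card_pos.2 hSne
          have hsm : S.card ≤ m := Finset.card_le_card hS
          have hmono := rpow_slots_mono E m S.card K hK hs1 hsm hcase
          -- unfold the denominators
          unfold Den at h1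
          have hpow : (θ * p) ^ m = (θ * p) ^ S.card * (θ * p) ^ (m - S.card) := by
            rw [← pow_add]
            congr 1
            omega
          have hA : 0 < (Fintype.card G : ℝ) * (θ * p) ^ S.card := by positivity
          have hR : 0 < ((E : ℝ) / m) ^ ((m : ℝ) / K) :=
            Real.rpow_pos_of_pos (by positivity) _
          have h2 : (inj G S B' : ℝ) * (θ * p) ^ (m - S.card) *
              (((Fintype.card G : ℝ) * (θ * p) ^ S.card) * ((E : ℝ) / m) ^ ((m : ℝ) / K))
              ≤ I * (((Fintype.card G : ℝ) * (θ * p) ^ S.card) * ((E : ℝ) / m) ^ ((m : ℝ) / K)) := by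
            calc (inj G S B' : ℝ) * (θ * p) ^ (m - S.card) *
                (((Fintype.card G : ℝ) * (θ * p) ^ S.card) * ((E : ℝ) / m) ^ ((m : ℝ) / K))
                = (inj G S B' : ℝ) * ((Fintype.card G : ℝ) * (θ * p) ^ m *
                    ((E : ℝ) / m) ^ ((m : ℝ) / K)) := by rw [hpow]; ring
              _ ≤ I * ((Fintype.card G : ℝ) * (θ * p) ^ S.card *
                    ((E : ℝ) / S.card) ^ ((S.card : ℝ) / K)) := h1
              _ ≤ I * ((Fintype.card G : ℝ) * (θ * p) ^ S.card *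
                    ((E : ℝ) / m) ^ ((m : ℝ) / K)) := by
                  apply mul_le_mul_of_nonneg_left _ hIpos.le
                  exact mul_le_mul_of_nonneg_left hmono hA.le
          exact le_of_mul_le_mul_right h2 (mul_pos hA hR)
    -- Theorem AR
    have hAR0 : (E : ℝ) * Real.log (θ * p / p)
        ≤ Real.log 2 + (E : ℝ) * (Real.log ((m : ℝ) / (ω * E)) + 2) :=
      AR (G := G) B' Z' p (θ * p) ω hp hθp hωpos hm (hfeas B' hB') hKB hinj' hheavy
    have hθeq : θ * p / p = θ := by field_simp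
    have hmω : (m : ℝ) / (ω * E) = K / (1 - Real.exp (-1)) := by
      rw [hωdef]
      field_simp
    have hAR : (E : ℝ) * Real.log θ
        ≤ Real.log 2 + (E : ℝ) * (Real.log (K / (1 - Real.exp (-1))) + 2) := by
      rw [hθeq, hmω] at hAR0
      exact hAR0
    have hlog : Real.log θ ≤ Real.log 2 / E + 2 + Real.log (K / (1 - Real.exp (-1))) := by
      have h1 : (E : ℝ) * Real.log θ
          ≤ (E : ℝ) * (Real.log 2 / E + 2 + Real.log (K / (1 - Real.exp (-1)))) := by
        calc (E : ℝ) * Real.log θ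
            ≤ Real.log 2 + (E : ℝ) * (Real.log (K / (1 - Real.exp (-1))) + 2) := hAR
          _ = (E : ℝ) * (Real.log 2 / E + 2 + Real.log (K / (1 - Real.exp (-1)))) := by
              field_simp
              ring
      exact le_of_mul_le_mul_left h1 hEr
    have hKc : 0 < K / (1 - Real.exp (-1)) := div_pos hKpos hc
    have hθle : θ ≤ Real.exp (Real.log 2 / E + 2) * (K / (1 - Real.exp (-1))) := by
      have h1 : Real.exp (Real.log θ)
          ≤ Real.exp (Real.log 2 / E + 2 + Real.log (K / (1 - Real.exp (-1)))) :=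
        Real.exp_le_exp.2 hlog
      rwa [Real.exp_log hθpos, Real.exp_add, Real.exp_log hKc] at h1
    have hnum := num_large E hE3
    have hfinal : Real.exp (Real.log 2 / E + 2) * (K / (1 - Real.exp (-1))) < 14.8 * K := by
      have : Real.exp (Real.log 2 / E + 2) * (K / (1 - Real.exp (-1)))
          = K * (Real.exp (Real.log 2 / E + 2) / (1 - Real.exp (-1))) := by ring
      rw [this]
      have h14 := mul_lt_mul_of_pos_left hnum hKpos
      linarith
    linarith

end Crest.Agent.Helper68.S0076
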