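import Crest.Agent.Helper68.S0076.DenseGlue
import Crest.Agent.Helper52.S0076.VSL

/-!
# Dense regime of S0076: assembly from the leaves (helper68; conditional infrastructure, row 55)

`injCount_le_dense_of_leaves` : helper16's Theorem D' in the counting form of helper52's
`PP.s0076_of_injCount`, with the five leaves (L1 density from the stabiliser bound, L2 Hakimi,
L3 biclique codegree, L5 `n^v ≤ e^v (n)_v`, L6 the numeric codegree step) as hypotheses.
`DenseFinal.lean` plugs the leaves in.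
-/

set_option autoImplicit false
set_option linter.unusedSectionVars false

noncomputable section

open Classical

namespace Crest.Agent.Helper68.S0076.Dense

open Finset Crest.CombinatoricsR.RandomGraph Crest.Agent.Helper52.PP

variable {n : ℕ} {W : Type} [Fintype W] [DecidableEq W]

/-- Density `e(A) ≤ k v(A)` from L1, when `n p^k ≤ 1` and `p < 1/2`. -/
lemma dens_nat (E₀ : Finset (EdgeSlot n)) (p : ℝ) (hp0 : 0 < p) (hp2 : p < 1 / 2) (k : ℕ)
    (hk : (n : ℝ) * p ^ k ≤ 1)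
    (L1 : ∀ A ⊆ E₀, (1 : ℝ) ≤ 2 * (n.descFactorial (vset A).card : ℝ) * p ^ A.card)
    (A : Finset (EdgeSlot n)) (hA : A ⊆ E₀) : A.card ≤ k * (vset A).card := by
  by_contra hcon
  have hlt : k * (vset A).card + 1 ≤ A.card := by omega
  have h1 := L1 A hA
  set v := (vset A).card with hv
  have hdesc : (n.descFactorial v : ℝ) ≤ (n : ℝ) ^ v := by
    exact_mod_cast Nat.descFactorial_le_pow n v
  have hp1 : p ≤ 1 := by linarith
  have hpow : p ^ A.card ≤ p ^ (k * v + 1) := pow_le_pow_of_le_one hp0.le hp1 hlt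
  have h2 : 2 * (n.descFactorial v : ℝ) * p ^ A.card ≤ 2 * (n : ℝ) ^ v * p ^ (k * v + 1) := by
    apply mul_le_mul (by linarith) hpow (by positivity) (by positivity)
  have h3 : 2 * (n : ℝ) ^ v * p ^ (k * v + 1) = 2 * p * ((n : ℝ) * p ^ k) ^ v := by
    rw [mul_pow, ← pow_mul, pow_succ]; ring
  have h4 : ((n : ℝ) * p ^ k) ^ v ≤ 1 := pow_le_one₀ (by positivity) hk
  have h5 : p * ((n : ℝ) * p ^ k) ^ v ≤ p := mul_le_of_le_one_right hp0.le h4
  rw [h3] at h2
  linarith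

/-- The codegree hypothesis of `injCount_le_of_orientation` from L3 and L6. -/
lemma hcod_of_leaves (E₀ : Finset (EdgeSlot n)) (hd : EdgeSlot n → Fin n) (k : ℕ)
    (hkdeg : ∀ v, (E₀.filter (fun s => hd s = v)).card ≤ k)
    (p C : ℝ) (hCp0 : 0 ≤ C * p) (hCp : C * p ≤ 1)
    (hH1 : (2 * n : ℝ) ≤ Real.exp (n * (C * p) ^ k))
    (L3 : ∀ B Y : Finset (Fin n), Disjoint B Y →
        (∀ x ∈ B, ∀ y ∈ Y, ∃ s ∈ E₀, s.1 = s(x, y)) →
        (Y.card.factorial : ℝ)
          ≤ 2 * (n.descFactorial (B.card + Y.card) : ℝ) * p ^ (B.card * Y.card))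
    (L6 : ∀ b t : ℕ, 1 ≤ b → 1 ≤ n →
        (t.factorial : ℝ) ≤ 2 * (n.descFactorial (b + t) : ℝ) * p ^ (b * t) →
        (2 * n : ℝ) ≤ Real.exp (n * (C * p) ^ b) → (t : ℝ) ≤ n * (C * p) ^ b)
    (B : Finset (Fin n)) :
    (Finset.univ.filter (fun y => ∀ x ∈ B, hostArc E₀ hd x y)).card
      ≤ ⌊(n : ℝ) * (C * p) ^ B.card⌋₊ := by
  set Y := Finset.univ.filter (fun y => ∀ x ∈ B, hostArc E₀ hd x y) with hY
  rcases B.eq_empty_or_nonempty with hB | hB
  · subst hB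
    have hYn : Y.card ≤ n := by
      have := Finset.card_le_univ Y
      rwa [Fintype.card_fin] at this
    rw [Finset.card_empty, pow_zero, mul_one, Nat.floor_natCast]
    exact hYn
  by_cases hBk : B.card ≤ k
  · have hn : 1 ≤ n := by
      obtain ⟨x, _⟩ := hB
      have := x.isLt
      omega
    have hdisj : Disjoint B Y := by
      rw [Finset.disjoint_left]
      intro y hyB hyY
      obtain ⟨s, _, hs, _⟩ := (Finset.mem_filter.1 hyY).2 y hyB
      exact s.2 (by rw [hs]; exact Sym2.mk_isDiag_iff.2 rfl)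
    have hall : ∀ x ∈ B, ∀ y ∈ Y, ∃ s ∈ E₀, s.1 = s(x, y) := by
      intro x hx y hy
      obtain ⟨s, hs, hsxy, _⟩ := (Finset.mem_filter.1 hy).2 x hx
      exact ⟨s, hs, hsxy⟩
    have h3 := L3 B Y hdisj hall
    have hb1 : 1 ≤ B.card := Finset.card_pos.2 hB
    have hH1b : (2 * n : ℝ) ≤ Real.exp (n * (C * p) ^ B.card) := by
      refine le_trans hH1 (Real.exp_le_exp.2 ?_)
      apply mul_le_mul_of_nonneg_left _ (Nat.cast_nonneg _)
      exact pow_le_pow_of_le_one hCp0 hCp hBk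
    have h6 := L6 B.card Y.card hb1 hn h3 hH1b
    exact Nat.le_floor h6
  · have hYe : Y = ∅ := by
      rw [Finset.eq_empty_iff_forall_notMem]
      intro y hy
      have hsub : B ⊆ Finset.univ.filter (fun x => hostArc E₀ hd x y) := by
        intro x hx
        exact Finset.mem_filter.2 ⟨Finset.mem_univ _, (Finset.mem_filter.1 hy).2 x hx⟩
      exact hBk (le_trans (Finset.card_le_card hsub) (hostArc_indeg E₀ hd k hkdeg y))
    rw [hYe, Finset.card_empty]
    exact Nat.zero_le _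

/-- **Theorem D' (helper16), counting form, modulo the leaves.** -/
theorem injCount_le_dense_of_leaves (H : SimpleGraph W) [DecidableRel H.Adj] (f₀ : W ↪ Fin n)
    (p : ℝ) (hp0 : 0 < p) (hp2 : p < 1 / 2) (k : ℕ) (C : ℝ) (hC0 : 0 ≤ C) (hCp : C * p ≤ 1)
    (hk : (n : ℝ) * p ^ k ≤ 1)
    (hH1 : (2 * n : ℝ) ≤ Real.exp (n * (C * p) ^ k))
    (hH2 : (k : ℝ) ^ 2 ≤ (C * p) * ((n : ℝ) * (C * p) ^ k) ^ 2)
    (L1 : ∀ A ⊆ slots H f₀,
        (1 : ℝ) ≤ 2 * (n.descFactorial (vset A).card : ℝ) * p ^ A.card)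
    (L2 : (∀ A ⊆ slots H f₀, A.card ≤ k * (vset A).card) →
        ∃ hd : EdgeSlot n → Fin n, (∀ s ∈ slots H f₀, hd s ∈ s.1) ∧
          ∀ v, ((slots H f₀).filter (fun s => hd s = v)).card ≤ k)
    (L3 : ∀ B Y : Finset (Fin n), Disjoint B Y →
        (∀ x ∈ B, ∀ y ∈ Y, ∃ s ∈ slots H f₀, s.1 = s(x, y)) →
        (Y.card.factorial : ℝ)
          ≤ 2 * (n.descFactorial (B.card + Y.card) : ℝ) * p ^ (B.card * Y.card))
    (L5 : ∀ v : ℕ, v ≤ n → (n : ℝ) ^ v ≤ Real.exp v * (n.descFactorial v : ℝ))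
    (L6 : ∀ b t : ℕ, 1 ≤ b → 1 ≤ n →
        (t.factorial : ℝ) ≤ 2 * (n.descFactorial (b + t) : ℝ) * p ^ (b * t) →
        (2 * n : ℝ) ≤ Real.exp (n * (C * p) ^ b) → (t : ℝ) ≤ n * (C * p) ^ b)
    (T : Finset (EdgeSlot n)) :
    (injCount H T : ℝ)
      ≤ (2 * Real.exp 2 * C * p) ^ T.card * (n.descFactorial (vset T).card : ℝ) := by
  have hCp0 : 0 ≤ C * p := mul_nonneg hC0 hp0.le
  obtain ⟨hd, hhd, hkdeg⟩ := L2 (dens_nat (slots H f₀) p hp0 hp2 k hk L1)
  have hcod := hcod_of_leaves (slots H f₀) hd k hkdeg p C hCp0 hCp hH1 L3 L6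
  have hN : ∀ b ≤ k, ((⌊(n : ℝ) * (C * p) ^ b⌋₊ : ℕ) : ℝ) ≤ (n : ℝ) * (C * p) ^ b :=
    fun b _ => Nat.floor_le (by positivity)
  have h := injCount_le_of_orientation H f₀ hd hhd k hkdeg
    (fun b => ⌊(n : ℝ) * (C * p) ^ b⌋₊) hcod (C * p) hCp0 hCp hN hH2 T
  have hv : (vset T).card ≤ n := by
    have := Finset.card_le_univ (vset T)
    rwa [Fintype.card_fin] at this
  have h5 := L5 _ hv
  have hv2 : (vset T).card ≤ 2 * T.card := Crest.Agent.Helper52.S0076.card_vset_le T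
  have hexp : Real.exp ((vset T).card : ℝ) ≤ Real.exp 2 ^ T.card := by
    rw [← Real.exp_nat_mul]
    apply Real.exp_le_exp.2
    have : ((vset T).card : ℝ) ≤ 2 * (T.card : ℝ) := by exact_mod_cast hv2
    linarith
  have hD0 : (0 : ℝ) ≤ (n.descFactorial (vset T).card : ℝ) := Nat.cast_nonneg _
  have hc0 : (0 : ℝ) ≤ (C * p) ^ T.card := pow_nonneg hCp0 _
  calc (injCount H T : ℝ)
      ≤ 2 ^ T.card * ((n : ℝ) ^ (vset T).card * (C * p) ^ T.card) := h
    _ ≤ 2 ^ T.card * ((Real.exp ((vset T).card : ℝ) * (n.descFactorial (vset T).card : ℝ))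
          * (C * p) ^ T.card) := by
        apply mul_le_mul_of_nonneg_left _ (by positivity)
        exact mul_le_mul_of_nonneg_right h5 hc0
    _ ≤ 2 ^ T.card * ((Real.exp 2 ^ T.card * (n.descFactorial (vset T).card : ℝ))
          * (C * p) ^ T.card) := by
        apply mul_le_mul_of_nonneg_left _ (by positivity)
        apply mul_le_mul_of_nonneg_right _ hc0
        exact mul_le_mul_of_nonneg_right hexp hD0
    _ = (2 * Real.exp 2 * C * p) ^ T.card * (n.descFactorial (vset T).card : ℝ) := by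
        rw [show 2 * Real.exp 2 * C * p = 2 * (Real.exp 2 * (C * p)) by ring, mul_pow, mul_pow]
        ring

/-- **S0076 in the dense regime, modulo the leaves**: the conclusion of statement S0076 when
`(H1)` and `(H2)` of helper16's Theorem D' hold for some `k` with `n p^k ≤ 1` and some
`C` with `2 e² C ≤ 32 e^50`. -/
theorem s0076_dense_of_leaves (n : ℕ) (W : Type) [Fintype W] [DecidableEq W]
    (H : SimpleGraph W) [DecidableRel H.Adj] (hW : Fintype.card W ≤ n)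
    (p : ℝ) (hp0 : 0 < p) (hp2 : p < 1 / 2) (k : ℕ) (C : ℝ) (hC0 : 0 ≤ C)
    (hC2 : 2 * Real.exp 2 * C ≤ 32 * Real.exp 50) (hCp : C * p ≤ 1)
    (hk : (n : ℝ) * p ^ k ≤ 1)
    (hH1 : (2 * n : ℝ) ≤ Real.exp (n * (C * p) ^ k))
    (hH2 : (k : ℝ) ^ 2 ≤ (C * p) * ((n : ℝ) * (C * p) ^ k) ^ 2)
    (f₀ : W ↪ Fin n)
    (L1 : ∀ A ⊆ slots H f₀,
        (1 : ℝ) ≤ 2 * (n.descFactorial (vset A).card : ℝ) * p ^ A.card)
    (L2 : (∀ A ⊆ slots H f₀, A.card ≤ k * (vset A).card) →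
        ∃ hd : EdgeSlot n → Fin n, (∀ s ∈ slots H f₀, hd s ∈ s.1) ∧
          ∀ v, ((slots H f₀).filter (fun s => hd s = v)).card ≤ k)
    (L3 : ∀ B Y : Finset (Fin n), Disjoint B Y →
        (∀ x ∈ B, ∀ y ∈ Y, ∃ s ∈ slots H f₀, s.1 = s(x, y)) →
        (Y.card.factorial : ℝ)
          ≤ 2 * (n.descFactorial (B.card + Y.card) : ℝ) * p ^ (B.card * Y.card))
    (L5 : ∀ v : ℕ, v ≤ n → (n : ℝ) ^ v ≤ Real.exp v * (n.descFactorial v : ℝ))
    (L6 : ∀ b t : ℕ, 1 ≤ b → 1 ≤ n →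
        (t.factorial : ℝ) ≤ 2 * (n.descFactorial (b + t) : ℝ) * p ^ (b * t) →
        (2 * n : ℝ) ≤ Real.exp (n * (C * p) ^ b) → (t : ℝ) ≤ n * (C * p) ^ b) :
    (1 : ℝ) / 2 ≤ gnpProb n
      (min 1 (2048 * Real.exp 50 * p * (1 + Real.logb 2 (H.edgeFinset.card : ℝ))))
      {G | H.IsContained G} := by
  refine s0076_of_injCount n W H hW p hp0.le ?_
  intro T _
  have h := injCount_le_dense_of_leaves H f₀ p hp0 hp2 k C hC0 hCp hk hH1 hH2 L1 L2 L3 L5 L6 T
  refine le_trans h ?_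
  apply mul_le_mul_of_nonneg_right _ (Nat.cast_nonneg _)
  apply pow_le_pow_left₀ (by positivity)
  exact mul_le_mul_of_nonneg_right hC2 hp0.le

end Crest.Agent.Helper68.S0076.Dense
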