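import Mathlib

/-!
# Oriented counting for the dense regime of S0076 (helper68; conditional infrastructure, row 55)

Abstract form of the counting step of helper16's Theorem D' (notes/s0076_helper16.md §6).

`A` is the arc relation of an oriented pattern on a finite vertex set `S`, `D` the arc relation of
an oriented host (both on the same vertex type `V`).  `pemb A D S` is the set of maps `V → V` that
are the identity off `S`, injective on `S` and send the arcs of `A` inside `S` to arcs of `D`.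
If the host has in-degrees `≤ k` and any `b` vertices have at most `N b` common out-neighbours,
then (`card_pemb_le`)

  `|pemb A D S| ≤ ∏_{w ∈ S} n₀ c ^ indeg_S(w)`

as soon as `N b ≤ n₀ c^b` for `b ≤ k` and `k² ≤ c (n₀ c^k)²`  (`0 ≤ c ≤ 1`).

Nothing here is specific to S0076; no statement of the frozen library is used.
-/

set_option autoImplicit false
set_option linter.unusedSectionVars false

noncomputable section

open Classical

namespace Crest.Agent.Helper68.S0076.Dense

open Finset

variable {V : Type*} [Fintype V]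

/-- Partial embeddings of the oriented pattern `(S, A)` into the oriented host `D`. -/
def IsPEmb (A D : V → V → Prop) (S : Finset V) (φ : V → V) : Prop :=
  (∀ x, x ∉ S → φ x = x) ∧ Set.InjOn φ S ∧ ∀ a ∈ S, ∀ b ∈ S, A a b → D (φ a) (φ b)

/-- The finite set of partial embeddings. -/
def pemb (A D : V → V → Prop) (S : Finset V) : Finset (V → V) :=
  Finset.univ.filter (IsPEmb A D S)

lemma mem_pemb (A D : V → V → Prop) (S : Finset V) (φ : V → V) :
    φ ∈ pemb A D S ↔ IsPEmb A D S φ := by
  unfold pemb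
  simp

/-- In-degree of `w` inside `S`. -/
def indeg (A : V → V → Prop) (S : Finset V) (w : V) : ℕ := (S.filter (fun x => A x w)).card

lemma card_pemb_empty (A D : V → V → Prop) : (pemb A D (∅ : Finset V)).card ≤ 1 := by
  rw [Finset.card_le_one]
  intro φ hφ ψ hψ
  rw [mem_pemb] at hφ hψ
  funext x
  rw [hφ.1 x (by simp), hψ.1 x (by simp)]

/-- Restricting a partial embedding on `insert w P` to `P`. -/
lemma isPEmb_restrict (A D : V → V → Prop) (P : Finset V) (w : V) (hw : w ∉ P) (φ : V → V)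
    (hφ : IsPEmb A D (insert w P) φ) : IsPEmb A D P (Function.update φ w w) := by
  obtain ⟨h1, h2, h3⟩ := hφ
  refine ⟨?_, ?_, ?_⟩
  · intro x hx
    by_cases hxw : x = w
    · subst hxw; simp
    · rw [Function.update_of_ne hxw]
      exact h1 x (by simp [hxw, hx])
  · intro a ha b hb hab
    have haw : a ≠ w := fun h => hw (h ▸ ha)
    have hbw : b ≠ w := fun h => hw (h ▸ hb)
    rw [Function.update_of_ne haw, Function.update_of_ne hbw] at hab
    exact h2 (by simp [ha]) (by simp [hb]) hab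
  · intro a ha b hb hab
    have haw : a ≠ w := fun h => hw (h ▸ ha)
    have hbw : b ≠ w := fun h => hw (h ▸ hb)
    rw [Function.update_of_ne haw, Function.update_of_ne hbw]
    exact h3 a (by simp [ha]) b (by simp [hb]) hab

/-- **One-vertex extension step.** -/
theorem card_pemb_insert_le (A D : V → V → Prop) (P : Finset V) (w : V) (hw : w ∉ P) (c : ℕ)
    (hc : ∀ ψ ∈ pemb A D P,
      (Finset.univ.filter (fun y : V => Function.update ψ w y ∈ pemb A D (insert w P))).card ≤ c) :
    (pemb A D (insert w P)).card ≤ c * (pemb A D P).card := by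
  set f : (V → V) → (V → V) := fun φ => Function.update φ w w with hf
  have himg : (pemb A D (insert w P)).image f ⊆ pemb A D P := by
    intro ψ hψ
    rw [Finset.mem_image] at hψ
    obtain ⟨φ, hφ, rfl⟩ := hψ
    rw [mem_pemb] at hφ ⊢
    exact isPEmb_restrict A D P w hw φ hφ
  have hfib : ∀ ψ ∈ (pemb A D (insert w P)).image f,
      ((pemb A D (insert w P)).filter (fun φ => f φ = ψ)).card ≤ c := by
    intro ψ hψ
    refine le_trans ?_ (hc ψ (himg hψ))
    apply Finset.card_le_card_of_injOn (fun φ => φ w)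
    · intro φ hφ
      have hφ' := Finset.mem_filter.1 (Finset.mem_coe.1 hφ)
      obtain ⟨hφ1, hφ2⟩ := hφ'
      rw [Finset.mem_coe, Finset.mem_filter]
      refine ⟨Finset.mem_univ _, ?_⟩
      have : Function.update ψ w (φ w) = φ := by
        rw [← hφ2, hf]
        simp
      rw [this]
      exact hφ1
    · intro φ₁ h₁ φ₂ h₂ h12
      have h₁' := (Finset.mem_filter.1 (Finset.mem_coe.1 h₁)).2
      have h₂' := (Finset.mem_filter.1 (Finset.mem_coe.1 h₂)).2
      have e1 : Function.update ψ w (φ₁ w) = φ₁ := by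
        rw [← h₁', hf]; simp
      have e2 : Function.update ψ w (φ₂ w) = φ₂ := by
        rw [← h₂', hf]; simp
      have h12' : φ₁ w = φ₂ w := h12
      rw [← e1, ← e2, h12']
  calc (pemb A D (insert w P)).card
      ≤ c * ((pemb A D (insert w P)).image f).card := Finset.card_le_mul_card_image _ c hfib
    _ ≤ c * (pemb A D P).card := Nat.mul_le_mul_left c (Finset.card_le_card himg)

/-- Tracing step: a new vertex with an already placed out-neighbour has at most `k` images. -/
theorem card_pemb_insert_trace (A D : V → V → Prop) (k : ℕ)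
    (hD : ∀ y, (Finset.univ.filter (fun x => D x y)).card ≤ k)
    (P : Finset V) (w : V) (hw : w ∉ P) (b : V) (hb : b ∈ P) (hwb : A w b) :
    (pemb A D (insert w P)).card ≤ k * (pemb A D P).card := by
  apply card_pemb_insert_le A D P w hw k
  intro ψ _
  refine le_trans (Finset.card_le_card ?_) (hD (ψ b))
  intro y hy
  rw [Finset.mem_filter] at hy ⊢
  refine ⟨Finset.mem_univ _, ?_⟩
  have h := (mem_pemb _ _ _ _).1 hy.2
  have hbw : b ≠ w := fun h => hw (h ▸ hb)
  have h3 := h.2.2 w (by simp) b (by simp [hb]) hwb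
  rwa [Function.update_self, Function.update_of_ne hbw] at h3

/-- Root step: a new vertex is a common out-neighbour of the images of its placed in-neighbours. -/
theorem card_pemb_insert_root (A D : V → V → Prop) (N : ℕ → ℕ)
    (hcod : ∀ B : Finset V, (Finset.univ.filter (fun y => ∀ x ∈ B, D x y)).card ≤ N B.card)
    (P : Finset V) (u : V) (hu : u ∉ P) :
    (pemb A D (insert u P)).card
      ≤ N ((P.filter (fun x => A x u)).card) * (pemb A D P).card := by
  apply card_pemb_insert_le A D P u hu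
  intro ψ hψ
  have hψ' := (mem_pemb _ _ _ _).1 hψ
  set B := P.filter (fun x => A x u) with hB
  have hBcard : (B.image ψ).card = B.card := by
    apply Finset.card_image_of_injOn
    intro a ha b hb hab
    exact hψ'.2.1 (Finset.mem_filter.1 (Finset.mem_coe.1 ha)).1
      (Finset.mem_filter.1 (Finset.mem_coe.1 hb)).1 hab
  rw [← hBcard]
  refine le_trans (Finset.card_le_card ?_) (hcod (B.image ψ))
  intro y hy
  rw [Finset.mem_filter] at hy ⊢
  refine ⟨Finset.mem_univ _, ?_⟩
  intro x' hx'
  rw [Finset.mem_image] at hx'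
  obtain ⟨x, hx, rfl⟩ := hx'
  have hxP : x ∈ P := (Finset.mem_filter.1 hx).1
  have hxu : A x u := (Finset.mem_filter.1 hx).2
  have h := (mem_pemb _ _ _ _).1 hy.2
  have hxne : x ≠ u := fun h => hu (h ▸ hxP)
  have h3 := h.2.2 x (by simp [hxP]) u (by simp) hxu
  rwa [Function.update_self, Function.update_of_ne hxne] at h3

/-- On a path from `X` to `P` inside `P ∪ X` some vertex of `X` has an arc into `P`. -/
theorem exists_arc_into (A : V → V → Prop) (P X : Finset V) (hdisj : Disjoint P X)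
    (x y : V) (hy : y ∈ P)
    (h : Relation.ReflTransGen (fun a b => A a b ∧ b ∈ P ∪ X) x y) (hx : x ∈ X) :
    ∃ w ∈ X, ∃ b ∈ P, A w b := by
  revert hx
  refine Relation.ReflTransGen.head_induction_on h ?_ ?_
  · intro hx
    exact absurd hx (Finset.disjoint_left.1 hdisj hy)
  · intro a c h' _ ih hx
    obtain ⟨hac, hc⟩ := h'
    rcases Finset.mem_union.1 hc with hcP | hcX
    · exact ⟨a, hx, c, hcP, hac⟩
    · exact ih hcX

/-- **Traced extension**: if every vertex of `X` reaches `P` inside `P ∪ X`, the vertices of `X`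
cost at most `k` each. -/
theorem card_pemb_union_trace (A D : V → V → Prop) (k : ℕ)
    (hD : ∀ y, (Finset.univ.filter (fun x => D x y)).card ≤ k) :
    ∀ (m : ℕ) (P X : Finset V), X.card = m → Disjoint P X →
      (∀ x ∈ X, ∃ y ∈ P, Relation.ReflTransGen (fun a b => A a b ∧ b ∈ P ∪ X) x y) →
      (pemb A D (P ∪ X)).card ≤ k ^ m * (pemb A D P).card := by
  intro m
  induction m with
  | zero =>
    intro P X hX _ _
    rw [Finset.card_eq_zero] at hX
    subst hX
    simp
  | succ m ih =>
    intro P X hX hdisj hreach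
    have hne : X.Nonempty := by
      rw [← Finset.card_pos, hX]; exact Nat.succ_pos m
    obtain ⟨x₀, hx₀⟩ := hne
    obtain ⟨y₀, hy₀, hpath⟩ := hreach x₀ hx₀
    obtain ⟨w, hwX, b, hbP, hwb⟩ := exists_arc_into A P X hdisj x₀ y₀ hy₀ hpath hx₀
    have hwP : w ∉ P := fun h => Finset.disjoint_left.1 hdisj h hwX
    have hunion : insert w P ∪ X.erase w = P ∪ X := by
      ext z
      simp only [Finset.mem_union, Finset.mem_insert, Finset.mem_erase]
      constructor
      · rintro ((rfl | h) | ⟨_, h⟩)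
        · exact Or.inr hwX
        · exact Or.inl h
        · exact Or.inr h
      · rintro (h | h)
        · exact Or.inl (Or.inr h)
        · by_cases hz : z = w
          · exact Or.inl (Or.inl hz)
          · exact Or.inr ⟨hz, h⟩
    have hcard : (X.erase w).card = m := by
      rw [Finset.card_erase_of_mem hwX, hX]; rfl
    have hdisj' : Disjoint (insert w P) (X.erase w) := by
      rw [Finset.disjoint_left]
      intro z hz hz'
      rw [Finset.mem_insert] at hz
      rw [Finset.mem_erase] at hz'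
      rcases hz with rfl | hz
      · exact hz'.1 rfl
      · exact Finset.disjoint_left.1 hdisj hz hz'.2
    have hreach' : ∀ x ∈ X.erase w, ∃ y ∈ insert w P,
        Relation.ReflTransGen (fun a b => A a b ∧ b ∈ insert w P ∪ X.erase w) x y := by
      intro x hx
      obtain ⟨y, hy, hp⟩ := hreach x (Finset.mem_of_mem_erase hx)
      refine ⟨y, Finset.mem_insert_of_mem hy, ?_⟩
      rw [hunion]
      exact hp
    have h1 := ih (insert w P) (X.erase w) hcard hdisj' hreach'
    rw [hunion] at h1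
    have h2 := card_pemb_insert_trace A D k hD P w hwP b hbP hwb
    calc (pemb A D (P ∪ X)).card ≤ k ^ m * (pemb A D (insert w P)).card := h1
      _ ≤ k ^ m * (k * (pemb A D P).card) := Nat.mul_le_mul_left _ h2
      _ = k ^ (m + 1) * (pemb A D P).card := by ring

/-- A pattern vertex of in-degree `> k` kills all embeddings. -/
lemma pemb_eq_empty_of_indeg (A D : V → V → Prop) (k : ℕ)
    (hD : ∀ y, (Finset.univ.filter (fun x => D x y)).card ≤ k)
    (S : Finset V) (w : V) (hw : w ∈ S) (hdeg : k < indeg A S w) : pemb A D S = ∅ := by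
  rw [Finset.eq_empty_iff_forall_notMem]
  intro φ hφ
  rw [mem_pemb] at hφ
  obtain ⟨_, h2, h3⟩ := hφ
  have hsub : (S.filter (fun x => A x w)).image φ
      ⊆ Finset.univ.filter (fun x => D x (φ w)) := by
    intro y hy
    rw [Finset.mem_image] at hy
    obtain ⟨x, hx, rfl⟩ := hy
    rw [Finset.mem_filter] at hx ⊢
    exact ⟨Finset.mem_univ _, h3 x hx.1 w hw hx.2⟩
  have hcard : ((S.filter (fun x => A x w)).image φ).card = indeg A S w := by
    unfold indeg
    apply Finset.card_image_of_injOn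
    intro a ha b hb hab
    exact h2 (Finset.mem_filter.1 (Finset.mem_coe.1 ha)).1
      (Finset.mem_filter.1 (Finset.mem_coe.1 hb)).1 hab
  have := Finset.card_le_card hsub
  rw [hcard] at this
  exact absurd (le_trans this (hD (φ w))) (not_le.2 hdeg)

/-- In an asymmetric relation some vertex of a nonempty finite set `Q` has at most `(|Q|-1)/2`
in-neighbours inside `Q`. -/
lemma exists_small_indeg (A : V → V → Prop) (hA : ∀ a b, A a b → ¬ A b a) (Q : Finset V)
    (hQ : Q.Nonempty) : ∃ u ∈ Q, 2 * indeg A Q u + 1 ≤ Q.card := by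
  obtain ⟨u, huQ, hmin⟩ := Finset.exists_min_image Q (fun w => indeg A Q w) hQ
  refine ⟨u, huQ, ?_⟩
  set T1 : Finset (Σ _ : V, V) := Q.sigma (fun w => Q.filter (fun a => A a w)) with hT1
  have hT1card : T1.card = ∑ w ∈ Q, indeg A Q w := by
    rw [hT1, Finset.card_sigma]; rfl
  have hsum : Q.card * indeg A Q u ≤ T1.card := by
    rw [hT1card]
    calc Q.card * indeg A Q u = ∑ _w ∈ Q, indeg A Q u := by
          rw [Finset.sum_const, smul_eq_mul]
      _ ≤ ∑ w ∈ Q, indeg A Q w := Finset.sum_le_sum hmin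
  have hmemT1 : ∀ z : (Σ _ : V, V), z ∈ T1 ↔ z.1 ∈ Q ∧ z.2 ∈ Q ∧ A z.2 z.1 := by
    intro z
    rw [hT1, Finset.mem_sigma, Finset.mem_filter]
  set I1 : Finset (V × V) := T1.image (fun z => (z.2, z.1)) with hI1
  set I2 : Finset (V × V) := T1.image (fun z => (z.1, z.2)) with hI2
  have hI1card : I1.card = T1.card := by
    apply Finset.card_image_of_injective
    rintro ⟨a, b⟩ ⟨c, d⟩ h
    simp only [Prod.mk.injEq] at h
    obtain ⟨h1, h2⟩ := h
    subst h1 h2
    rfl
  have hI2card : I2.card = T1.card := by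
    apply Finset.card_image_of_injective
    rintro ⟨a, b⟩ ⟨c, d⟩ h
    simp only [Prod.mk.injEq] at h
    obtain ⟨h1, h2⟩ := h
    subst h1 h2
    rfl
  have hdisj : Disjoint I1 I2 := by
    rw [Finset.disjoint_left]
    intro pr h1 h2
    rw [hI1, Finset.mem_image] at h1
    rw [hI2, Finset.mem_image] at h2
    obtain ⟨z, hz, rfl⟩ := h1
    obtain ⟨z', hz', hzz⟩ := h2
    simp only [Prod.mk.injEq] at hzz
    have h1 := ((hmemT1 z).1 hz).2.2
    have h2 := ((hmemT1 z').1 hz').2.2
    rw [hzz.1, hzz.2] at h2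
    exact hA _ _ h1 h2
  have hsub : I1 ∪ I2 ⊆ Q.offDiag := by
    intro pr hpr
    rw [Finset.mem_offDiag]
    rcases Finset.mem_union.1 hpr with h | h
    · rw [hI1, Finset.mem_image] at h
      obtain ⟨z, hz, rfl⟩ := h
      obtain ⟨h1, h2, h3⟩ := (hmemT1 z).1 hz
      refine ⟨h2, h1, ?_⟩
      intro he
      simp only at he
      rw [he] at h3
      exact hA _ _ h3 h3
    · rw [hI2, Finset.mem_image] at h
      obtain ⟨z, hz, rfl⟩ := h
      obtain ⟨h1, h2, h3⟩ := (hmemT1 z).1 hz
      refine ⟨h1, h2, ?_⟩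
      intro he
      simp only at he
      rw [he] at h3
      exact hA _ _ h3 h3
  have h2T : 2 * T1.card ≤ Q.card * Q.card - Q.card := by
    have := Finset.card_le_card hsub
    rw [Finset.card_union_of_disjoint hdisj, hI1card, hI2card, Finset.offDiag_card] at this
    omega
  have hq : 0 < Q.card := Finset.card_pos.2 hQ
  have hqq : Q.card ≤ Q.card * Q.card := Nat.le_mul_self _
  have h3 : Q.card * (2 * indeg A Q u + 1) ≤ Q.card * Q.card := by
    have : Q.card * (2 * indeg A Q u + 1) = 2 * (Q.card * indeg A Q u) + Q.card := by ring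
    rw [this]
    omega
  exact Nat.le_of_mul_le_mul_left h3 hq

/-- **Oriented counting (Theorem D', one orientation class).** -/
theorem card_pemb_le (A D : V → V → Prop) (k : ℕ)
    (hA : ∀ a b, A a b → ¬ A b a)
    (hD : ∀ y, (Finset.univ.filter (fun x => D x y)).card ≤ k)
    (N : ℕ → ℕ)
    (hcod : ∀ B : Finset V, (Finset.univ.filter (fun y => ∀ x ∈ B, D x y)).card ≤ N B.card)
    (n₀ c : ℝ) (hn₀ : 0 ≤ n₀) (hc0 : 0 ≤ c) (hc1 : c ≤ 1)
    (hN : ∀ b ≤ k, (N b : ℝ) ≤ n₀ * c ^ b)
    (hH2 : (k : ℝ) ^ 2 ≤ c * (n₀ * c ^ k) ^ 2) :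
    ∀ (m : ℕ) (S : Finset V), S.card = m →
      ((pemb A D S).card : ℝ) ≤ ∏ w ∈ S, (n₀ * c ^ indeg A S w) := by
  intro m
  induction m using Nat.strong_induction_on with
  | _ m ih =>
  intro S hS
  have hβ0 : ∀ b : ℕ, (0 : ℝ) ≤ n₀ * c ^ b := fun b => mul_nonneg hn₀ (pow_nonneg hc0 _)
  have hprod_nonneg : ∀ (S' : Finset V) (g : V → ℕ), (0 : ℝ) ≤ ∏ w ∈ S', (n₀ * c ^ g w) :=
    fun S' g => Finset.prod_nonneg (fun w _ => hβ0 _)
  rcases S.eq_empty_or_nonempty with hSe | hSne
  · subst hSe
    rw [Finset.prod_empty]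
    exact_mod_cast card_pemb_empty A D
  by_cases hdeg : ∀ w ∈ S, indeg A S w ≤ k
  swap
  · have hex : ∃ w ∈ S, k < indeg A S w := by
      by_contra hcon
      exact hdeg (fun w hw => not_lt.1 (fun h => hcon ⟨w, hw, h⟩))
    obtain ⟨w, hw, hk⟩ := hex
    rw [pemb_eq_empty_of_indeg A D k hD S w hw hk, Finset.card_empty, Nat.cast_zero]
    exact hprod_nonneg S _
  -- a sink strongly connected set `Q`
  set R : V → V → Prop := Relation.ReflTransGen (fun a b => a ∈ S ∧ b ∈ S ∧ A a b) with hR
  set desc : V → Finset V := fun x => S.filter (fun y => R x y) with hdesc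
  obtain ⟨u₀, hu₀S, hu₀min⟩ := Finset.exists_min_image S (fun x => (desc x).card) hSne
  set Q := desc u₀ with hQ
  have hQS : Q ⊆ S := Finset.filter_subset _ _
  have hu₀Q : u₀ ∈ Q := Finset.mem_filter.2 ⟨hu₀S, Relation.ReflTransGen.refl⟩
  have hQne : Q.Nonempty := ⟨u₀, hu₀Q⟩
  have hclosed : ∀ a ∈ Q, ∀ b ∈ S, A a b → b ∈ Q := by
    intro a ha b hb hab
    have haS := hQS ha
    have hRa : R u₀ a := (Finset.mem_filter.1 ha).2
    exact Finset.mem_filter.2 ⟨hb, Relation.ReflTransGen.tail hRa ⟨haS, hb, hab⟩⟩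
  have hdescQ : ∀ w ∈ Q, desc w = Q := by
    intro w hw
    have hRw : R u₀ w := (Finset.mem_filter.1 hw).2
    apply Finset.eq_of_subset_of_card_le
    · intro y hy
      have hy' := Finset.mem_filter.1 hy
      exact Finset.mem_filter.2 ⟨hy'.1, Relation.ReflTransGen.trans hRw hy'.2⟩
    · exact hu₀min w (hQS hw)
  obtain ⟨u, huQ, hint⟩ := exists_small_indeg A hA Q hQne
  have huS : u ∈ S := hQS huQ
  set S' := S \ Q with hS'
  set X := Q.erase u with hX
  have huS' : u ∉ S' := by
    rw [hS', Finset.mem_sdiff]; exact fun h => h.2 huQ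
  have hPX : insert u S' ∪ X = S := by
    ext z
    simp only [hS', hX, Finset.mem_union, Finset.mem_insert, Finset.mem_sdiff, Finset.mem_erase]
    constructor
    · rintro ((rfl | h) | ⟨_, h⟩)
      · exact huS
      · exact h.1
      · exact hQS h
    · intro hz
      by_cases hzQ : z ∈ Q
      · by_cases hzu : z = u
        · exact Or.inl (Or.inl hzu)
        · exact Or.inr ⟨hzu, hzQ⟩
      · exact Or.inl (Or.inr ⟨hz, hzQ⟩)
  have hdisjPX : Disjoint (insert u S') X := by
    rw [Finset.disjoint_left]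
    intro z hz hz'
    rw [hX, Finset.mem_erase] at hz'
    rw [Finset.mem_insert, hS', Finset.mem_sdiff] at hz
    rcases hz with rfl | hz
    · exact hz'.1 rfl
    · exact hz.2 hz'.2
  have hreach : ∀ x ∈ X, ∃ y ∈ insert u S',
      Relation.ReflTransGen (fun a b => A a b ∧ b ∈ insert u S' ∪ X) x y := by
    intro x hx
    have hxQ : x ∈ Q := Finset.mem_of_mem_erase hx
    refine ⟨u, Finset.mem_insert_self _ _, ?_⟩
    rw [hPX]
    have hu' : u ∈ desc x := by rw [hdescQ x hxQ]; exact huQ
    have hRxu : Relation.ReflTransGen (fun a b => a ∈ S ∧ b ∈ S ∧ A a b) x u :=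
      (Finset.mem_filter.1 hu').2
    exact Relation.ReflTransGen.mono (r := fun a b => a ∈ S ∧ b ∈ S ∧ A a b)
      (p := fun a b => A a b ∧ b ∈ S) (fun a b h => ⟨h.2.2, h.2.1⟩) x u hRxu
  have h1 := card_pemb_union_trace A D k hD X.card (insert u S') X rfl hdisjPX hreach
  rw [hPX] at h1
  have h2 := card_pemb_insert_root A D N hcod S' u huS'
  set ext := (S'.filter (fun x => A x u)).card with hext
  have hS'card : S'.card < m := by
    rw [← hS, hS']
    exact Finset.card_lt_card (Finset.sdiff_ssubset hQS hQne)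
  have h3 := ih S'.card hS'card S' rfl
  have hindeg' : ∀ w ∈ S', indeg A S' w = indeg A S w := by
    intro w hw
    unfold indeg
    congr 1
    ext x
    simp only [Finset.mem_filter]
    constructor
    · rintro ⟨hx, hxw⟩
      exact ⟨(Finset.mem_sdiff.1 hx).1, hxw⟩
    · rintro ⟨hx, hxw⟩
      refine ⟨?_, hxw⟩
      rw [hS', Finset.mem_sdiff]
      refine ⟨hx, fun hxQ => ?_⟩
      have hwS : w ∈ S := (Finset.mem_sdiff.1 hw).1
      exact (Finset.mem_sdiff.1 hw).2 (hclosed x hxQ w hwS hxw)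
  have hindeg_u : indeg A S u = ext + indeg A Q u := by
    unfold indeg
    rw [hext, ← Finset.card_union_of_disjoint]
    · congr 1
      ext x
      simp only [hS', Finset.mem_filter, Finset.mem_union, Finset.mem_sdiff]
      constructor
      · rintro ⟨hx, hxu⟩
        by_cases hxQ : x ∈ Q
        · exact Or.inr ⟨hxQ, hxu⟩
        · exact Or.inl ⟨⟨hx, hxQ⟩, hxu⟩
      · rintro (⟨⟨hx, _⟩, hxu⟩ | ⟨hxQ, hxu⟩)
        · exact ⟨hx, hxu⟩
        · exact ⟨hQS hxQ, hxu⟩
    · rw [Finset.disjoint_left]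
      intro x hx hx'
      exact (Finset.mem_sdiff.1 (Finset.mem_filter.1 hx).1).2 (Finset.mem_filter.1 hx').1
  -- the accounting
  set i := indeg A Q u with hi
  have hXcard : X.card + 1 = Q.card := by
    rw [hX, Finset.card_erase_of_mem huQ]
    have := Finset.card_pos.2 hQne
    omega
  have h2i : 2 * i ≤ X.card := by omega
  have hext_le : ext ≤ k := by
    have := hdeg u huS
    omega
  -- key inequality  k^x ≤ c^i β(k)^x
  have hkey : (k : ℝ) ^ X.card ≤ c ^ i * (n₀ * c ^ k) ^ X.card := by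
    have hb0 : (0 : ℝ) ≤ c ^ i * (n₀ * c ^ k) ^ X.card :=
      mul_nonneg (pow_nonneg hc0 _) (pow_nonneg (hβ0 k) _)
    apply le_of_sq_le_sq _ hb0
    calc ((k : ℝ) ^ X.card) ^ 2 = ((k : ℝ) ^ 2) ^ X.card := by ring
      _ ≤ (c * (n₀ * c ^ k) ^ 2) ^ X.card :=
          pow_le_pow_left₀ (by positivity) hH2 _
      _ = c ^ X.card * ((n₀ * c ^ k) ^ X.card) ^ 2 := by ring
      _ ≤ c ^ (2 * i) * ((n₀ * c ^ k) ^ X.card) ^ 2 := by
          apply mul_le_mul_of_nonneg_right _ (by positivity)
          exact pow_le_pow_of_le_one hc0 hc1 h2i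
      _ = (c ^ i * (n₀ * c ^ k) ^ X.card) ^ 2 := by ring
  -- product over Q
  have hprodX : (n₀ * c ^ k) ^ X.card ≤ ∏ w ∈ X, (n₀ * c ^ indeg A S w) := by
    rw [← Finset.prod_const]
    apply Finset.prod_le_prod (fun w _ => hβ0 k)
    intro w hw
    have hwS : w ∈ S := hQS (Finset.mem_of_mem_erase hw)
    exact mul_le_mul_of_nonneg_left (pow_le_pow_of_le_one hc0 hc1 (hdeg w hwS)) hn₀
  have hprodQ : ∏ w ∈ Q, (n₀ * c ^ indeg A S w)
      = (n₀ * c ^ indeg A S u) * ∏ w ∈ X, (n₀ * c ^ indeg A S w) := by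
    rw [hX, Finset.mul_prod_erase Q (fun w => n₀ * c ^ indeg A S w) huQ]
  have hprodS : ∏ w ∈ S, (n₀ * c ^ indeg A S w)
      = (∏ w ∈ S', (n₀ * c ^ indeg A S' w)) * ∏ w ∈ Q, (n₀ * c ^ indeg A S w) := by
    rw [← Finset.prod_sdiff hQS]
    congr 1
    apply Finset.prod_congr rfl
    intro w hw
    rw [hindeg' w hw]
  have hcast : ((pemb A D S).card : ℝ)
      ≤ (k : ℝ) ^ X.card * ((N ext : ℝ) * ((pemb A D S').card : ℝ)) := by
    have : (pemb A D S).card ≤ k ^ X.card * (N ext * (pemb A D S').card) :=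
      le_trans h1 (Nat.mul_le_mul_left _ h2)
    exact_mod_cast this
  have hNext : (N ext : ℝ) ≤ n₀ * c ^ ext := hN ext hext_le
  have hP' := hprod_nonneg S' (fun w => indeg A S' w)
  have hN0 : (0 : ℝ) ≤ (N ext : ℝ) := Nat.cast_nonneg _
  have hk0 : (0 : ℝ) ≤ (k : ℝ) ^ X.card := by positivity
  rw [hprodS, hprodQ, hindeg_u]
  calc ((pemb A D S).card : ℝ)
      ≤ (k : ℝ) ^ X.card * ((N ext : ℝ) * ((pemb A D S').card : ℝ)) := hcast
    _ ≤ (k : ℝ) ^ X.card * ((n₀ * c ^ ext) * ∏ w ∈ S', (n₀ * c ^ indeg A S' w)) := by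
        apply mul_le_mul_of_nonneg_left _ hk0
        exact mul_le_mul hNext h3 (Nat.cast_nonneg _) (hβ0 _)
    _ ≤ (c ^ i * (n₀ * c ^ k) ^ X.card) * ((n₀ * c ^ ext) * ∏ w ∈ S', (n₀ * c ^ indeg A S' w)) := by
        apply mul_le_mul_of_nonneg_right hkey
        exact mul_nonneg (hβ0 _) hP'
    _ = (∏ w ∈ S', (n₀ * c ^ indeg A S' w)) * ((n₀ * c ^ (ext + i)) * (n₀ * c ^ k) ^ X.card) := by
        rw [pow_add]; ring
    _ ≤ (∏ w ∈ S', (n₀ * c ^ indeg A S' w))
          * ((n₀ * c ^ (ext + i)) * ∏ w ∈ X, (n₀ * c ^ indeg A S w)) := by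
        apply mul_le_mul_of_nonneg_left _ hP'
        exact mul_le_mul_of_nonneg_left hprodX (hβ0 _)

end Crest.Agent.Helper68.S0076.Dense
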