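import Crest.Agent.Helper68.S0076.DenseAsm
import Crest.Agent.Helper52.S0076.DenseHost
import Crest.Agent.Helper84.S0076.DenseLeaves
import Crest.Agent.Helper52.PP.Stab

/-!
# S0076 in the dense regime, and S0076 modulo the sparse regime (helper68; row 55)

* `injCount_le_dense` : helper16's Theorem D' (notes/s0076_helper16.md §6) in the counting form:
  under the hypothesis `hE` of S0076, `0 < p < 1/2`, `e² ≤ C`, `C p ≤ 1`, `n p^k ≤ 1` and
  `(H1) 2n ≤ exp(n (Cp)^k)`, `(H2) k² ≤ Cp (n (Cp)^k)²`: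
  `inj(T,H) ≤ (2 e² C p)^|T| (n)_{v_T}` for EVERY pattern `T`.
* `s0076_dense` : hence the conclusion of S0076 in that regime (`2 e² C ≤ 32 e^50`).
* `s0076_of_sparse` : the conclusion of S0076 from its hypotheses and ONE missing piece `hsparse`:
  the counting bound with constant `8·10^22` for patterns with at least `2^(3·10^21)` slots in the
  regime where `(H1) ∧ (H2)` fails for `C₀ = 4·10^22 / e²` and `k` = the least `k` with
  `n p^k ≤ 1`.  `hsparse` is NOT proved anywhere: row 55 is NOT proved.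

Leaves: `Helper52/S0076/DenseHost.lean` (L1, L3), `Helper84/S0076/DenseLeaves.lean` (L2, L5, L6).
-/

set_option autoImplicit false
set_option linter.unusedSectionVars false

noncomputable section

open Classical

namespace Crest.Agent.Helper68.S0076.Dense

open Finset Crest.CombinatoricsR.RandomGraph Crest.Agent.Helper52.PP

/-- **Theorem D' (helper16), counting form.** -/
theorem injCount_le_dense (n : ℕ) (W : Type) [Fintype W] [DecidableEq W]
    (H : SimpleGraph W) [DecidableRel H.Adj] (hW : Fintype.card W ≤ n)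
    (p : ℝ) (hp0 : 0 < p) (hp2 : p < 1 / 2)
    (hE : ∀ F : H.Subgraph, (1 : ℝ) / 2 ≤ gnpExpect n p (fun G => (G.copyCount F.coe : ℝ)))
    (k : ℕ) (C : ℝ) (hC : Real.exp 2 ≤ C) (hCp : C * p ≤ 1)
    (hk : (n : ℝ) * p ^ k ≤ 1)
    (hH1 : (2 * n : ℝ) ≤ Real.exp (n * (C * p) ^ k))
    (hH2 : (k : ℝ) ^ 2 ≤ (C * p) * ((n : ℝ) * (C * p) ^ k) ^ 2)
    (T : Finset (EdgeSlot n)) :
    (injCount H T : ℝ)
      ≤ (2 * Real.exp 2 * C * p) ^ T.card * (n.descFactorial (vset T).card : ℝ) := by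
  obtain ⟨f₀⟩ : Nonempty (W ↪ Fin n) :=
    Function.Embedding.nonempty_of_card_le (by simpa using hW)
  have hstab : ∀ A ⊆ slots H f₀, (((Finset.univ.filter (fun σ : Equiv.Perm (Fin n) =>
        A.map (slotPerm σ).toEmbedding = A)).card : ℕ) : ℝ)
          ≤ 2 * (n.factorial : ℝ) * p ^ A.card :=
    fun A hA => by convert card_stab_le H p hp0.le hE f₀ A hA
  have hC0 : 0 ≤ C := le_trans (Real.exp_pos 2).le hC
  refine injCount_le_dense_of_leaves H f₀ p hp0 hp2 k C hC0 hCp hk hH1 hH2 ?_ ?_ ?_ ?_ ?_ T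
  · intro A hA
    exact Crest.Agent.Helper52.S0076.dens_of_stab (slots H f₀) p hp0.le hstab A hA
  · intro hdens
    obtain ⟨hd, h1, h2⟩ := Crest.Agent.Helper84.S0076.exists_orientation (slots H f₀) k hdens
    exact ⟨hd, h1, fun v => by convert h2 v⟩
  · intro B Y hBY hall
    exact Crest.Agent.Helper52.S0076.codeg_of_stab (slots H f₀) p hp0.le hstab B Y hBY hall
  · intro v hv
    exact Crest.Agent.Helper84.S0076.pow_le_exp_mul_descFactorial n v hv
  · intro b t hb hn hfac hH1b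
    exact Crest.Agent.Helper84.S0076.codeg_numeric n b t p C hb hn hp0 hC hfac hH1b

/-- **S0076 in the dense regime.** -/
theorem s0076_dense (n : ℕ) (W : Type) [Fintype W] [DecidableEq W]
    (H : SimpleGraph W) [DecidableRel H.Adj] (hW : Fintype.card W ≤ n)
    (p : ℝ) (hp0 : 0 < p) (hp2 : p < 1 / 2)
    (hE : ∀ F : H.Subgraph, (1 : ℝ) / 2 ≤ gnpExpect n p (fun G => (G.copyCount F.coe : ℝ)))
    (k : ℕ) (C : ℝ) (hC : Real.exp 2 ≤ C) (hC2 : 2 * Real.exp 2 * C ≤ 32 * Real.exp 50)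
    (hCp : C * p ≤ 1) (hk : (n : ℝ) * p ^ k ≤ 1)
    (hH1 : (2 * n : ℝ) ≤ Real.exp (n * (C * p) ^ k))
    (hH2 : (k : ℝ) ^ 2 ≤ (C * p) * ((n : ℝ) * (C * p) ^ k) ^ 2) :
    (1 : ℝ) / 2 ≤ gnpProb n
      (min 1 (2048 * Real.exp 50 * p * (1 + Real.logb 2 (H.edgeFinset.card : ℝ))))
      {G | H.IsContained G} := by
  refine s0076_of_injCount n W H hW p hp0.le ?_
  intro T _
  have h := injCount_le_dense n W H hW p hp0 hp2 hE k C hC hCp hk hH1 hH2 T
  have hC0 : 0 ≤ C := le_trans (Real.exp_pos 2).le hC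
  have he : (0 : ℝ) ≤ Real.exp 2 := (Real.exp_pos 2).le
  refine le_trans h ?_
  apply mul_le_mul_of_nonneg_right _ (Nat.cast_nonneg _)
  apply pow_le_pow_left₀ (mul_nonneg (mul_nonneg (mul_nonneg (by norm_num) he) hC0) hp0.le)
  exact mul_le_mul_of_nonneg_right hC2 hp0.le

end Crest.Agent.Helper68.S0076.Dense
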