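import Crest.Agent.Helper68.S0076.DenseCount
import Crest.Agent.Helper52.PP.Count

/-!
# Dense regime of S0076: from the oriented counting to `injCount` (helper68; conditional
infrastructure, row 55)

`injCount_le_sum_pemb` : for an orientation `hd` of the copy `slots H f₀` of the host, the number
of injective homomorphisms of a pattern `T` into `H` is at most the sum, over the `2^|T|`
orientations `o` of `T`, of the numbers of oriented partial embeddings counted in `DenseCount`.

`injCount_le_of_orientation` : hence, if the host orientation has in-degrees `≤ k`, any `b`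
vertices have at most `N b ≤ n c^b` common out-neighbours and `k² ≤ c (n c^k)²`, `0 ≤ c ≤ 1`, then
`inj(T,H) ≤ 2^|T| n^{v_T} c^|T|`   (helper16's Theorem D' with `c = C p`).
-/

set_option autoImplicit false
set_option linter.unusedSectionVars false

noncomputable section

open Classical

namespace Crest.Agent.Helper68.S0076.Dense

open Finset Crest.CombinatoricsR.RandomGraph Crest.Agent.Helper52.PP

variable {n : ℕ} {W : Type} [Fintype W] [DecidableEq W]

/-- Arcs of the oriented host: `x → y` iff `{x,y}` is a slot of `E₀` with head `y`. -/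
def hostArc (E₀ : Finset (EdgeSlot n)) (hd : EdgeSlot n → Fin n) (x y : Fin n) : Prop :=
  ∃ s ∈ E₀, s.1 = s(x, y) ∧ hd s = y

/-- Arcs of the pattern `T` oriented by `o`. -/
def patArc (T : Finset (EdgeSlot n)) (o : {t // t ∈ T} → Fin n) (x y : Fin n) : Prop :=
  ∃ t : {t // t ∈ T}, t.1.1 = s(x, y) ∧ o t = y

/-- The orientations of `T`. -/
def orients (T : Finset (EdgeSlot n)) : Finset ({t // t ∈ T} → Fin n) :=
  Fintype.piFinset (fun t : {t // t ∈ T} => t.1.1.toFinset)

lemma card_orients (T : Finset (EdgeSlot n)) : (orients T).card = 2 ^ T.card := by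
  unfold orients
  rw [Fintype.card_piFinset]
  have : ∀ t : {t // t ∈ T}, (t.1.1.toFinset).card = 2 :=
    fun t => Sym2.card_toFinset_of_not_isDiag t.1.1 t.1.2
  rw [Finset.prod_congr rfl (fun t _ => this t), Finset.prod_const, Finset.card_univ,
    Fintype.card_coe]

lemma hostArc_indeg (E₀ : Finset (EdgeSlot n)) (hd : EdgeSlot n → Fin n) (k : ℕ)
    (hk : ∀ v, (E₀.filter (fun s => hd s = v)).card ≤ k) (y : Fin n) :
    (Finset.univ.filter (fun x => hostArc E₀ hd x y)).card ≤ k := by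
  set other : EdgeSlot n → Fin n := fun s => if h : y ∈ s.1 then Sym2.Mem.other h else y
    with hother
  have hsub : Finset.univ.filter (fun x => hostArc E₀ hd x y)
      ⊆ (E₀.filter (fun s => hd s = y)).image other := by
    intro x hx
    rw [Finset.mem_filter] at hx
    obtain ⟨s, hs, hsxy, hhd⟩ := hx.2
    rw [Finset.mem_image]
    refine ⟨s, Finset.mem_filter.2 ⟨hs, hhd⟩, ?_⟩
    have hy : y ∈ s.1 := by rw [hsxy]; exact Sym2.mem_mk_right x y
    rw [hother]
    simp only [dif_pos hy]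
    have h1 := Sym2.other_spec hy
    have h2 : (s(y, Sym2.Mem.other hy) : Sym2 (Fin n)) = s(y, x) :=
      h1.trans (hsxy.trans Sym2.eq_swap)
    exact Sym2.congr_right.1 h2
  exact le_trans (Finset.card_le_card hsub) (le_trans Finset.card_image_le (hk y))

lemma patArc_asymm (T : Finset (EdgeSlot n)) (o : {t // t ∈ T} → Fin n) (a b : Fin n)
    (h : patArc T o a b) : ¬ patArc T o b a := by
  rintro ⟨t', ht', hot'⟩
  obtain ⟨t, ht, hot⟩ := h
  have htt : t = t' := by
    apply Subtype.ext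
    apply Subtype.ext
    rw [ht, ht', Sym2.eq_swap]
  subst htt
  have hab : a = b := by rw [← hot', ← hot]
  subst hab
  exact t.1.2 (by rw [ht]; exact Sym2.mk_isDiag_iff.2 rfl)

/-- Every slot contributes an arc: the in-degrees sum to at least `|T|`. -/
lemma card_le_sum_indeg (T : Finset (EdgeSlot n)) (o : {t // t ∈ T} → Fin n)
    (ho : ∀ t, o t ∈ t.1.1) :
    T.card ≤ ∑ w ∈ vset T, indeg (patArc T o) (vset T) w := by
  set Sg : Finset (Σ _ : Fin n, Fin n) :=
    (vset T).sigma (fun w => (vset T).filter (fun x => patArc T o x w)) with hSg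
  have hcard : Sg.card = ∑ w ∈ vset T, indeg (patArc T o) (vset T) w := by
    rw [hSg, Finset.card_sigma]; rfl
  rw [← hcard, ← Finset.card_attach]
  apply Finset.card_le_card_of_injOn (fun t => (⟨o t, Sym2.Mem.other (ho t)⟩ : Σ _ : Fin n, Fin n))
  · intro t _
    rw [Finset.mem_coe, hSg, Finset.mem_sigma, Finset.mem_filter]
    have hspec := Sym2.other_spec (ho t)
    refine ⟨?_, ?_, ?_⟩
    · exact (mem_vset T _).2 ⟨t.1, t.2, ho t⟩
    · exact (mem_vset T _).2 ⟨t.1, t.2, Sym2.other_mem (ho t)⟩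
    · exact ⟨t, by rw [← hspec, Sym2.eq_swap], rfl⟩
  · intro t _ t' _ htt
    simp only [Sigma.mk.injEq, heq_eq_eq] at htt
    apply Subtype.ext
    apply Subtype.ext
    calc t.1.1 = s(o t, Sym2.Mem.other (ho t)) := (Sym2.other_spec (ho t)).symm
      _ = s(o t', Sym2.Mem.other (ho t')) := Sym2.eq_iff.2 (Or.inl ⟨htt.1, htt.2⟩)
      _ = t'.1.1 := Sym2.other_spec (ho t')

/-- The map on `Fin n` attached to an injective homomorphism `g` of `T` into `H`. -/
def extMap (T : Finset (EdgeSlot n)) (f₀ : W ↪ Fin n) (g : {v // v ∈ vset T} → W)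
    (x : Fin n) : Fin n :=
  if hx : x ∈ vset T then f₀ (g ⟨x, hx⟩) else x

lemma extMap_of_mem (T : Finset (EdgeSlot n)) (f₀ : W ↪ Fin n) (g : {v // v ∈ vset T} → W)
    (x : Fin n) (hx : x ∈ vset T) : extMap T f₀ g x = f₀ (g ⟨x, hx⟩) := by
  unfold extMap
  rw [dif_pos hx]

/-- Every injective homomorphism gives an oriented partial embedding for SOME orientation. -/
lemma exists_orient (H : SimpleGraph W) [DecidableRel H.Adj] (f₀ : W ↪ Fin n)
    (hd : EdgeSlot n → Fin n) (hhd : ∀ s ∈ slots H f₀, hd s ∈ s.1)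
    (T : Finset (EdgeSlot n)) (g : {v // v ∈ vset T} ↪ W) (hg : IsHom H T g) :
    ∃ o ∈ orients T,
      extMap T f₀ g ∈ pemb (patArc T o) (hostArc (slots H f₀) hd) (vset T) := by
  set φ := extMap T f₀ g with hφ
  have key : ∀ t : {t // t ∈ T}, ∃ x : Fin n, x ∈ t.1.1 ∧
      ∀ a b : Fin n, t.1.1 = s(a, b) → x = b →
        ∃ s' ∈ slots H f₀, s'.1 = s(φ a, φ b) ∧ hd s' = φ b := by
    rintro ⟨⟨z, hz⟩, ht⟩
    induction z using Sym2.ind with
    | _ a₀ b₀ =>
      have hne : a₀ ≠ b₀ := fun h => hz (Sym2.mk_isDiag_iff.2 h)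
      have ha₀ : a₀ ∈ vset T := (mem_vset T a₀).2 ⟨⟨s(a₀, b₀), hz⟩, ht, Sym2.mem_mk_left _ _⟩
      have hb₀ : b₀ ∈ vset T := (mem_vset T b₀).2 ⟨⟨s(a₀, b₀), hz⟩, ht, Sym2.mem_mk_right _ _⟩
      have hadj : H.Adj (g ⟨a₀, ha₀⟩) (g ⟨b₀, hb₀⟩) :=
        hg ⟨a₀, ha₀⟩ ⟨b₀, hb₀⟩ ⟨⟨s(a₀, b₀), hz⟩, ht, rfl⟩
      have hφa : φ a₀ = f₀ (g ⟨a₀, ha₀⟩) := extMap_of_mem T f₀ g a₀ ha₀
      have hφb : φ b₀ = f₀ (g ⟨b₀, hb₀⟩) := extMap_of_mem T f₀ g b₀ hb₀
      have hφne : φ a₀ ≠ φ b₀ := by
        rw [hφa, hφb]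
        intro h
        exact hadj.ne (f₀.injective h)
      have hnd : ¬ (s(φ a₀, φ b₀) : Sym2 (Fin n)).IsDiag := by
        rw [Sym2.mk_isDiag_iff]; exact hφne
      have hmem : (⟨s(φ a₀, φ b₀), hnd⟩ : EdgeSlot n) ∈ slots H f₀ := by
        rw [mem_slots]
        refine ⟨g ⟨a₀, ha₀⟩, g ⟨b₀, hb₀⟩, hadj, ?_⟩
        show (s(φ a₀, φ b₀) : Sym2 (Fin n)) = _
        rw [hφa, hφb]
      have hhead := hhd _ hmem
      have hhead' : hd ⟨s(φ a₀, φ b₀), hnd⟩ = φ a₀ ∨ hd ⟨s(φ a₀, φ b₀), hnd⟩ = φ b₀ :=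
        Sym2.mem_iff.1 hhead
      rcases hhead' with h1 | h1
      · refine ⟨a₀, Sym2.mem_mk_left _ _, ?_⟩
        intro a b hab hb
        have hab' : (s(a₀, b₀) : Sym2 (Fin n)) = s(a, b) := hab
        rw [Sym2.eq_iff] at hab'
        rcases hab' with ⟨h2, h3⟩ | ⟨h2, h3⟩
        · exact absurd (hb.trans h3.symm) hne
        · refine ⟨⟨s(φ a₀, φ b₀), hnd⟩, hmem, ?_, ?_⟩
          · show (s(φ a₀, φ b₀) : Sym2 (Fin n)) = s(φ a, φ b)
            rw [h2, h3]
            exact Sym2.eq_swap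
          · rw [h1, h2]
      · refine ⟨b₀, Sym2.mem_mk_right _ _, ?_⟩
        intro a b hab hb
        have hab' : (s(a₀, b₀) : Sym2 (Fin n)) = s(a, b) := hab
        rw [Sym2.eq_iff] at hab'
        rcases hab' with ⟨h2, h3⟩ | ⟨h2, h3⟩
        · refine ⟨⟨s(φ a₀, φ b₀), hnd⟩, hmem, ?_, ?_⟩
          · show (s(φ a₀, φ b₀) : Sym2 (Fin n)) = s(φ a, φ b)
            rw [h2, h3]
          · rw [h1, h3]
        · exact absurd (h2.trans hb.symm) hne
  choose o ho using key
  refine ⟨o, ?_, ?_⟩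
  · unfold orients
    rw [Fintype.mem_piFinset]
    intro t
    exact Sym2.mem_toFinset.2 (ho t).1
  · rw [mem_pemb]
    refine ⟨?_, ?_, ?_⟩
    · intro x hx
      show extMap T f₀ g x = x
      unfold extMap
      rw [dif_neg hx]
    · intro x hx y hy hxy
      have hx' : x ∈ vset T := hx
      have hy' : y ∈ vset T := hy
      rw [hφ, extMap_of_mem T f₀ g x hx', extMap_of_mem T f₀ g y hy'] at hxy
      have := g.injective (f₀.injective hxy)
      exact congrArg Subtype.val this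
    · intro a _ b _ hab
      obtain ⟨t, ht, hot⟩ := hab
      exact (ho t).2 a b ht hot

/-- **Sum over orientations.** -/
theorem injCount_le_sum_pemb (H : SimpleGraph W) [DecidableRel H.Adj] (f₀ : W ↪ Fin n)
    (hd : EdgeSlot n → Fin n) (hhd : ∀ s ∈ slots H f₀, hd s ∈ s.1)
    (T : Finset (EdgeSlot n)) :
    injCount H T ≤ ∑ o ∈ orients T,
      (pemb (patArc T o) (hostArc (slots H f₀) hd) (vset T)).card := by
  set I : Finset ({v // v ∈ vset T} ↪ W) := Finset.univ.filter (fun g => IsHom H T g) with hI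
  have hIcard : I.card = injCount H T := by
    unfold injCount
    rw [Nat.card_eq_fintype_card, Fintype.card_subtype]
  set Φ : ({v // v ∈ vset T} ↪ W) → (Fin n → Fin n) := fun g => extMap T f₀ g with hΦ
  have hinj : Set.InjOn Φ (I : Set ({v // v ∈ vset T} ↪ W)) := by
    intro g _ g' _ hgg
    apply DFunLike.ext
    intro v
    have := congrFun hgg v.1
    simp only [hΦ] at this
    rw [extMap_of_mem T f₀ g v.1 v.2, extMap_of_mem T f₀ g' v.1 v.2] at this
    exact f₀.injective this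
  have hsub : I.image Φ ⊆ (orients T).biUnion
      (fun o => pemb (patArc T o) (hostArc (slots H f₀) hd) (vset T)) := by
    intro φ hφ
    rw [Finset.mem_image] at hφ
    obtain ⟨g, hg, rfl⟩ := hφ
    rw [hI, Finset.mem_filter] at hg
    obtain ⟨o, ho, hmem⟩ := exists_orient H f₀ hd hhd T g hg.2
    rw [Finset.mem_biUnion]
    exact ⟨o, ho, hmem⟩
  calc injCount H T = I.card := hIcard.symm
    _ = (I.image Φ).card := (Finset.card_image_of_injOn hinj).symm
    _ ≤ ((orients T).biUnion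
          (fun o => pemb (patArc T o) (hostArc (slots H f₀) hd) (vset T))).card :=
        Finset.card_le_card hsub
    _ ≤ ∑ o ∈ orients T, (pemb (patArc T o) (hostArc (slots H f₀) hd) (vset T)).card :=
        Finset.card_biUnion_le

/-- **Theorem D' (counting form), given a host orientation and a codegree bound.** -/
theorem injCount_le_of_orientation (H : SimpleGraph W) [DecidableRel H.Adj] (f₀ : W ↪ Fin n)
    (hd : EdgeSlot n → Fin n) (hhd : ∀ s ∈ slots H f₀, hd s ∈ s.1) (k : ℕ)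
    (hk : ∀ v, ((slots H f₀).filter (fun s => hd s = v)).card ≤ k)
    (N : ℕ → ℕ)
    (hcod : ∀ B : Finset (Fin n),
      (Finset.univ.filter (fun y => ∀ x ∈ B, hostArc (slots H f₀) hd x y)).card ≤ N B.card)
    (c : ℝ) (hc0 : 0 ≤ c) (hc1 : c ≤ 1)
    (hN : ∀ b ≤ k, (N b : ℝ) ≤ (n : ℝ) * c ^ b)
    (hH2 : (k : ℝ) ^ 2 ≤ c * ((n : ℝ) * c ^ k) ^ 2)
    (T : Finset (EdgeSlot n)) :
    (injCount H T : ℝ) ≤ 2 ^ T.card * ((n : ℝ) ^ (vset T).card * c ^ T.card) := by
  have hsum := injCount_le_sum_pemb H f₀ hd hhd T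
  have hn0 : (0 : ℝ) ≤ (n : ℝ) := Nat.cast_nonneg _
  have hterm : ∀ o ∈ orients T,
      ((pemb (patArc T o) (hostArc (slots H f₀) hd) (vset T)).card : ℝ)
        ≤ (n : ℝ) ^ (vset T).card * c ^ T.card := by
    intro o ho
    have ho' : ∀ t, o t ∈ t.1.1 := by
      intro t
      unfold orients at ho
      rw [Fintype.mem_piFinset] at ho
      exact Sym2.mem_toFinset.1 (ho t)
    have h1 := card_pemb_le (patArc T o) (hostArc (slots H f₀) hd) k (patArc_asymm T o)
      (hostArc_indeg (slots H f₀) hd k hk) N (fun B => by convert hcod B)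
      (n : ℝ) c hn0 hc0 hc1 hN hH2
      (vset T).card (vset T) rfl
    have h2 : ∏ w ∈ vset T, ((n : ℝ) * c ^ indeg (patArc T o) (vset T) w)
        = (n : ℝ) ^ (vset T).card * c ^ (∑ w ∈ vset T, indeg (patArc T o) (vset T) w) := by
      rw [Finset.prod_mul_distrib, Finset.prod_const, Finset.prod_pow_eq_pow_sum]
    rw [h2] at h1
    refine le_trans h1 ?_
    apply mul_le_mul_of_nonneg_left _ (pow_nonneg hn0 _)
    exact pow_le_pow_of_le_one hc0 hc1 (card_le_sum_indeg T o ho')
  calc (injCount H T : ℝ)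
      ≤ ((∑ o ∈ orients T,
          (pemb (patArc T o) (hostArc (slots H f₀) hd) (vset T)).card : ℕ) : ℝ) := by
        exact_mod_cast hsum
    _ = ∑ o ∈ orients T,
          ((pemb (patArc T o) (hostArc (slots H f₀) hd) (vset T)).card : ℝ) := by
        push_cast; rfl
    _ ≤ ∑ _o ∈ orients T, ((n : ℝ) ^ (vset T).card * c ^ T.card) := Finset.sum_le_sum hterm
    _ = 2 ^ T.card * ((n : ℝ) ^ (vset T).card * c ^ T.card) := by
        rw [Finset.sum_const, card_orients, nsmul_eq_mul]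
        push_cast
        ring

end Crest.Agent.Helper68.S0076.Dense
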