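import Crest.Agent.Helper68.S0076.DenseFinal
import Crest.Agent.Helper52.S0076.Huge
import Crest.Agent.Helper52.S0076.GL

/-!
# S0076 modulo the sparse regime (helper68; conditional glue, row 55)

`s0076_of_sparse` : the conclusion of statement S0076 from its hypotheses and ONE missing piece
`hsparse` — the counting bound `inj(T,H) ≤ (8·10^22 p)^|T| (n)_{v_T}` for the patterns `T` with at
least `2^(3·10^21)` slots, in the regime where
  `0 < p`, `8·10^22 p < 1`, `k` = the least `k` with `n p^k ≤ 1`, and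
  `(H1) 2n ≤ exp(n (C₀ p)^k)` or `(H2) k² ≤ C₀ p (n (C₀ p)^k)²` FAILS   (`C₀ = 4·10^22 / e²`).
Everything else is proved: small `h` by the log-spread lemma (`s0076_logSmall`), the dense
regime `(H1) ∧ (H2)` by helper16's Theorem D' (`injCount_le_dense`), `8·10^22 p ≥ 1` trivially.
`hsparse` is NOT proved anywhere: row 55 is NOT proved.
-/

set_option autoImplicit false
set_option linter.unusedSectionVars false

noncomputable section

open Classical

namespace Crest.Agent.Helper68.S0076.Dense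

open Finset Crest.CombinatoricsR.RandomGraph Crest.Agent.Helper52.PP

/-- The constant of the dense regime: `2 e² C₀ = 8·10^22`. -/
def C₀ : ℝ := 4 * 10 ^ 22 / Real.exp 2

lemma two_exp_C₀ : 2 * Real.exp 2 * C₀ = 8 * 10 ^ 22 := by
  unfold C₀
  have := Real.exp_pos 2
  field_simp
  ring

lemma exp_two_le_C₀ : Real.exp 2 ≤ C₀ := by
  unfold C₀
  rw [le_div_iff₀ (Real.exp_pos 2)]
  have h1 : Real.exp 2 = Real.exp 1 ^ 2 := by
    rw [← Real.exp_nat_mul]; norm_num
  have h2 : Real.exp 1 ≤ 3 := by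
    have := Real.exp_one_lt_d9
    linarith
  rw [h1]
  calc Real.exp 1 ^ 2 * Real.exp 1 ^ 2 = Real.exp 1 ^ 4 := by ring
    _ ≤ 3 ^ 4 := pow_le_pow_left₀ (Real.exp_pos 1).le h2 4
    _ ≤ 4 * 10 ^ 22 := by norm_num

/-- Under the hypotheses of S0076, `p > 0`. -/
lemma pos_of_hE (n : ℕ) (W : Type) [Fintype W] [DecidableEq W]
    (H : SimpleGraph W) [DecidableRel H.Adj] (hW : Fintype.card W ≤ n)
    (hH : 1 ≤ H.edgeFinset.card) (p : ℝ) (hp0 : 0 ≤ p)
    (hE : ∀ F : H.Subgraph, (1 : ℝ) / 2 ≤ gnpExpect n p (fun G => (G.copyCount F.coe : ℝ))) :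
    0 < p := by
  by_contra hcon
  have hp : p = 0 := le_antisymm (not_lt.1 hcon) hp0
  obtain ⟨f₀⟩ : Nonempty (W ↪ Fin n) :=
    Function.Embedding.nonempty_of_card_le (by simpa using hW)
  obtain ⟨e, he⟩ := Finset.card_pos.1 hH
  induction e using Sym2.ind with
  | _ a b =>
    rw [SimpleGraph.mem_edgeFinset] at he
    have hadj : H.Adj a b := he
    have hne' : f₀ a ≠ f₀ b := fun h => hadj.ne (f₀.injective h)
    have hnd : ¬ (s(f₀ a, f₀ b) : Sym2 (Fin n)).IsDiag := by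
      rw [Sym2.mk_isDiag_iff]; exact hne'
    have hmem : (⟨s(f₀ a, f₀ b), hnd⟩ : EdgeSlot n) ∈ slots H f₀ :=
      (mem_slots H f₀ _).2 ⟨a, b, hadj, rfl⟩
    have h := card_stab_le H p hp0 hE f₀ {⟨s(f₀ a, f₀ b), hnd⟩}
      (Finset.singleton_subset_iff.2 hmem)
    rw [hp, Finset.card_singleton, pow_one, mul_zero] at h
    have h1 : 0 < (Finset.univ.filter (fun σ : Equiv.Perm (Fin n) =>
        ({⟨s(f₀ a, f₀ b), hnd⟩} : Finset (EdgeSlot n)).map (slotPerm σ).toEmbedding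
          = {⟨s(f₀ a, f₀ b), hnd⟩})).card := by
      apply Finset.card_pos.2
      refine ⟨1, Finset.mem_filter.2 ⟨Finset.mem_univ _, ?_⟩⟩
      rw [slotPerm_one]
      simp
    have h2 : (0 : ℝ) < ((Finset.univ.filter (fun σ : Equiv.Perm (Fin n) =>
        ({⟨s(f₀ a, f₀ b), hnd⟩} : Finset (EdgeSlot n)).map (slotPerm σ).toEmbedding
          = {⟨s(f₀ a, f₀ b), hnd⟩})).card : ℝ) := by exact_mod_cast h1
    have h3 : (0 : ℝ) < 0 := lt_of_lt_of_le h2 (by convert h)
    exact lt_irrefl _ h3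

/-- **S0076 modulo the sparse regime** (conditional glue; `hsparse` is NOT proved anywhere). -/
theorem s0076_of_sparse (n : ℕ) (hn : 2 ≤ n) (W : Type) [Fintype W] [DecidableEq W]
    (H : SimpleGraph W) [DecidableRel H.Adj] (hW : Fintype.card W ≤ n)
    (hH : 1 ≤ H.edgeFinset.card) (p : ℝ) (hp0 : 0 ≤ p) (hp1 : p ≤ 1)
    (hE : ∀ F : H.Subgraph, (1 : ℝ) / 2 ≤ gnpExpect n p (fun G => (G.copyCount F.coe : ℝ)))
    (hsparse : 0 < p → 8 * 10 ^ 22 * p < 1 → ∀ k : ℕ, (n : ℝ) * p ^ k ≤ 1 →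
      (∀ j < k, 1 < (n : ℝ) * p ^ j) →
      ¬ ((2 * n : ℝ) ≤ Real.exp (n * (C₀ * p) ^ k) ∧
          (k : ℝ) ^ 2 ≤ (C₀ * p) * ((n : ℝ) * (C₀ * p) ^ k) ^ 2) →
      ∀ T : Finset (EdgeSlot n), 2 ^ (3 * 10 ^ 21) ≤ T.card →
        (injCount H T : ℝ)
          ≤ (8 * 10 ^ 22 * p) ^ T.card * (n.descFactorial (vset T).card : ℝ)) :
    (1 : ℝ) / 2 ≤ gnpProb n
      (min 1 (2048 * Real.exp 50 * p * (1 + Real.logb 2 (H.edgeFinset.card : ℝ))))
      {G | H.IsContained G} := by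
  by_cases hbig : 1 ≤ 8 * 10 ^ 22 * p
  · refine Crest.Agent.Helper52.S0076.s0076_of_hugeSpread_pow n hn W H hW hH p hp0 hp1 hE
      (3 * 10 ^ 21) (8 * 10 ^ 22) (by norm_num) (by norm_num) ?_
    intro T _
    have h1 : ((Finset.univ.filter
          (fun f : W ↪ Fin n => T ⊆ Crest.Agent.Helper68.PP.slotImage H f)).card : ℝ)
        ≤ (Fintype.card (W ↪ Fin n) : ℝ) :=
      Nat.cast_le.2 (Finset.card_le_univ _)
    have h2 : (1 : ℝ) ≤ (8 * 10 ^ 22 * p) ^ T.card := one_le_pow₀ hbig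
    calc ((Finset.univ.filter
          (fun f : W ↪ Fin n => T ⊆ Crest.Agent.Helper68.PP.slotImage H f)).card : ℝ)
        ≤ (Fintype.card (W ↪ Fin n) : ℝ) := h1
      _ = 1 * (Fintype.card (W ↪ Fin n) : ℝ) := (one_mul _).symm
      _ ≤ (8 * 10 ^ 22 * p) ^ T.card * (Fintype.card (W ↪ Fin n) : ℝ) :=
          mul_le_mul_of_nonneg_right h2 (Nat.cast_nonneg _)
  · have hsmall : 8 * 10 ^ 22 * p < 1 := not_le.1 hbig
    have hp0' : 0 < p := pos_of_hE n W H hW hH p hp0 hE
    have hp2 : p < 1 / 2 := by nlinarith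
    have hn0 : (0 : ℝ) < (n : ℝ) := by exact_mod_cast (by omega : 0 < n)
    have hex : ∃ k : ℕ, (n : ℝ) * p ^ k ≤ 1 := by
      obtain ⟨k, hk⟩ := exists_pow_lt_of_lt_one (show (0 : ℝ) < 1 / n by positivity)
        (show p < 1 by linarith)
      refine ⟨k, ?_⟩
      have := mul_lt_mul_of_pos_left hk hn0
      rw [mul_one_div_cancel hn0.ne'] at this
      exact this.le
    have hkspec : (n : ℝ) * p ^ (Nat.find hex) ≤ 1 := Nat.find_spec hex
    have hkmin : ∀ j < Nat.find hex, 1 < (n : ℝ) * p ^ j :=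
      fun j hj => not_le.1 (Nat.find_min hex hj)
    have hC0p : C₀ * p ≤ 1 := by
      have h := two_exp_C₀
      have he : (1 : ℝ) ≤ 2 * Real.exp 2 := by
        have := Real.add_one_le_exp (2 : ℝ)
        linarith
      have hC0 : 0 ≤ C₀ := le_trans (Real.exp_pos 2).le exp_two_le_C₀
      have h3 : C₀ * p ≤ 2 * Real.exp 2 * C₀ * p := by
        have : C₀ ≤ 2 * Real.exp 2 * C₀ := by nlinarith
        exact mul_le_mul_of_nonneg_right this hp0'.le
      rw [h] at h3
      linarith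
    refine Crest.Agent.Helper52.S0076.s0076_of_hugeSpread_pow n hn W H hW hH p hp0 hp1 hE
      (3 * 10 ^ 21) (8 * 10 ^ 22) (by norm_num) (by norm_num) ?_
    intro T hT
    have hinj : (injCount H T : ℝ)
        ≤ (8 * 10 ^ 22 * p) ^ T.card * (n.descFactorial (vset T).card : ℝ) := by
      by_cases hdense : (2 * n : ℝ) ≤ Real.exp (n * (C₀ * p) ^ (Nat.find hex)) ∧
          ((Nat.find hex : ℕ) : ℝ) ^ 2
            ≤ (C₀ * p) * ((n : ℝ) * (C₀ * p) ^ (Nat.find hex)) ^ 2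
      · have h := injCount_le_dense n W H hW p hp0' hp2 hE (Nat.find hex) C₀ exp_two_le_C₀
          hC0p hkspec hdense.1 hdense.2 T
        rw [two_exp_C₀] at h
        exact h
      · exact hsparse hp0' hsmall (Nat.find hex) hkspec hkmin hdense T hT
    have h2 := spread_of_injCount H T _ hinj
    have hset : (Finset.univ.filter
          (fun f : W ↪ Fin n => T ⊆ Crest.Agent.Helper68.PP.slotImage H f))
        = (Finset.univ.filter (fun f : W ↪ Fin n => T ⊆ slots H f)) := by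
      apply Finset.filter_congr
      intro f _
      rw [Crest.Agent.Helper52.S0076.slotImage_eq_slots]
    rw [hset]
    exact h2

end Crest.Agent.Helper68.S0076.Dense
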