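import Crest.Agent.Helper68.S0076.LogSpread
import Crest.Agent.Helper52.S0076.GL
import Crest.Agent.Helper46.S0076.GL3

/-!
# S0076 for hosts with `log₂ h ≤ 8·10²¹ - 4` (helper68, assembly; CONDITIONAL INSURANCE, row 55)

`s0076_logSmall` is the conclusion of statement S0076 under the EXTRA hypothesis
`Nat.log 2 h + 4 ≤ 8 * 10 ^ 21` (`h` = number of edges of `H`).  It is NOT the statement (which
has no such restriction); it is what Theorem A + Theorem C' (the log-spread lemma) give through
Park–Pham.  `spread_of_hE` is the log-spread lemma itself for copies of `H` in `K_n`.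
-/

set_option autoImplicit false

namespace Crest.Agent.Helper68.S0076

open Finset Crest.CombinatoricsR.RandomGraph Crest.Agent.Helper68
open Crest.Agent.Helper48.S0076 (stab_pos)
open Crest.Agent.Helper52.S0076 (card_perm_embed stab_le_of_hE)
open Crest.Agent.Helper46.S0076 (sum_K_le)
open scoped Pointwise

/-- **Log-spread lemma for copies of `H` in `K_n`** (embedding form): under the hypothesis `hE`
of S0076, every nonempty set `T` of edge slots lies in the slot image of at most a
`(41 max(1, log(h/|T|)) p)^|T|` fraction of the embeddings. -/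
theorem spread_of_hE (n : ℕ) (W : Type) [Fintype W] [DecidableEq W] (H : SimpleGraph W)
    [DecidableRel H.Adj] (hW : Fintype.card W ≤ n) (hH : 1 ≤ H.edgeFinset.card)
    (p : ℝ) (hp0 : 0 ≤ p)
    (hE : ∀ F : H.Subgraph, (1 : ℝ) / 2 ≤
      Crest.CombinatoricsR.RandomGraph.gnpExpect n p (fun G => (G.copyCount F.coe : ℝ)))
    (T : Finset (EdgeSlot n)) (hT : T.Nonempty) :
    ((Finset.univ.filter (fun f : W ↪ Fin n => T ⊆ PP.slotImage H f)).card : ℝ)
      ≤ (41 * max 1 (Real.log ((H.edgeFinset.card : ℝ) / T.card)) * p) ^ T.card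
          * (Fintype.card (W ↪ Fin n) : ℝ) := by
  classical
  have hne0 : Nonempty (W ↪ Fin n) :=
    Function.Embedding.nonempty_of_card_le (by simpa using hW)
  obtain ⟨f₀⟩ := hne0
  set H₀ := PP.slotImage H f₀ with hH₀
  have hcardG : Fintype.card (Equiv.Perm (Fin n)) = n.factorial := by
    rw [Fintype.card_perm, Fintype.card_fin]
  have hfeas : ∀ A ⊆ H₀, (stab (Equiv.Perm (Fin n)) A : ℝ)
      ≤ 2 * (Fintype.card (Equiv.Perm (Fin n)) : ℝ) * p ^ A.card := by
    intro A hA
    rw [hcardG]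
    exact stab_le_of_hE n W H p hp0 hE f₀ A hA
  -- `H₀` is nonempty, hence `p > 0`
  have hH₀ne : H₀.Nonempty := by
    have hne : H.edgeFinset.Nonempty := Finset.card_pos.1 hH
    rw [hH₀]
    unfold PP.slotImage
    exact (Finset.attach_nonempty_iff.2 hne).image _
  have hp : 0 < p := by
    rcases hp0.lt_or_eq with h | h
    · exact h
    · exfalso
      obtain ⟨z, hz⟩ := hH₀ne
      have h1 := hfeas {z} (Finset.singleton_subset_iff.2 hz)
      rw [← h] at h1
      simp only [Finset.card_singleton, pow_one, mul_zero] at h1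
      have h2 : 0 < stab (Equiv.Perm (Fin n)) ({z} : Finset (EdgeSlot n)) := stab_pos _
      have h3 : (0 : ℝ) < (stab (Equiv.Perm (Fin n)) ({z} : Finset (EdgeSlot n)) : ℝ) := by
        exact_mod_cast h2
      linarith
  have hls := logspread (G := Equiv.Perm (Fin n)) H₀ p hp hfeas T hT
  rw [hcardG] at hls
  have hce := card_perm_embed H f₀ T
  have hceR : ((Finset.univ.filter (fun σ : Equiv.Perm (Fin n) => T ⊆ σ • H₀)).card : ℝ)
        * (Fintype.card (W ↪ Fin n) : ℝ)
      = ((Finset.univ.filter (fun f : W ↪ Fin n => T ⊆ PP.slotImage H f)).card : ℝ)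
        * (n.factorial : ℝ) := by
    exact_mod_cast hce
  have hfact : (0 : ℝ) < (n.factorial : ℝ) := by exact_mod_cast Nat.factorial_pos n
  have hemb : (0 : ℝ) ≤ (Fintype.card (W ↪ Fin n) : ℝ) := by positivity
  -- monotonicity in the host size
  have hH₀card : H₀.card ≤ H.edgeFinset.card := PP.card_slotImage_le H f₀
  have hmono : max 1 (Real.log ((H₀.card : ℝ) / T.card))
      ≤ max 1 (Real.log ((H.edgeFinset.card : ℝ) / T.card)) := by
    apply max_le_max le_rfl
    have hTpos : (0 : ℝ) < (T.card : ℝ) := by exact_mod_cast Finset.card_pos.2 hT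
    have hH₀pos : (0 : ℝ) < (H₀.card : ℝ) := by exact_mod_cast Finset.card_pos.2 hH₀ne
    apply Real.log_le_log (by positivity)
    apply div_le_div_of_nonneg_right _ hTpos.le
    exact_mod_cast hH₀card
  have hmax1 : (1 : ℝ) ≤ max 1 (Real.log ((H₀.card : ℝ) / T.card)) := le_max_left _ _
  have hpow : (41 * max 1 (Real.log ((H₀.card : ℝ) / T.card)) * p) ^ T.card
      ≤ (41 * max 1 (Real.log ((H.edgeFinset.card : ℝ) / T.card)) * p) ^ T.card := by
    apply pow_le_pow_left₀ (by positivity)
    have : 41 * max 1 (Real.log ((H₀.card : ℝ) / T.card))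
        ≤ 41 * max 1 (Real.log ((H.edgeFinset.card : ℝ) / T.card)) := by linarith
    exact mul_le_mul_of_nonneg_right this hp0
  have h1 : ((Finset.univ.filter (fun f : W ↪ Fin n => T ⊆ PP.slotImage H f)).card : ℝ)
        * (n.factorial : ℝ)
      ≤ ((41 * max 1 (Real.log ((H.edgeFinset.card : ℝ) / T.card)) * p) ^ T.card
          * (Fintype.card (W ↪ Fin n) : ℝ)) * (n.factorial : ℝ) := by
    rw [← hceR]
    calc ((Finset.univ.filter (fun σ : Equiv.Perm (Fin n) => T ⊆ σ • H₀)).card : ℝ)
          * (Fintype.card (W ↪ Fin n) : ℝ)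
        ≤ ((n.factorial : ℝ) * (41 * max 1 (Real.log ((H₀.card : ℝ) / T.card)) * p) ^ T.card)
          * (Fintype.card (W ↪ Fin n) : ℝ) := mul_le_mul_of_nonneg_right hls hemb
      _ ≤ ((n.factorial : ℝ) *
            (41 * max 1 (Real.log ((H.edgeFinset.card : ℝ) / T.card)) * p) ^ T.card)
          * (Fintype.card (W ↪ Fin n) : ℝ) := by
          apply mul_le_mul_of_nonneg_right _ hemb
          exact mul_le_mul_of_nonneg_left hpow hfact.le
      _ = _ := by ring
  exact le_of_mul_le_mul_right h1 hfact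

/-- **S0076 for `log₂ h ≤ 8·10²¹ - 4`** (conditional insurance; NOT the statement S0076). -/
theorem s0076_logSmall (n : ℕ) (_hn : 2 ≤ n) (W : Type) [Fintype W] [DecidableEq W]
    (H : SimpleGraph W) [DecidableRel H.Adj] (hW : Fintype.card W ≤ n)
    (hH : 1 ≤ H.edgeFinset.card) (p : ℝ) (hp0 : 0 ≤ p) (_hp1 : p ≤ 1)
    (hE : ∀ F : H.Subgraph, (1 : ℝ) / 2 ≤
      Crest.CombinatoricsR.RandomGraph.gnpExpect n p (fun G => (G.copyCount F.coe : ℝ)))
    (hsmall : Nat.log 2 H.edgeFinset.card + 4 ≤ 8 * 10 ^ 21) :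
    (1 : ℝ) / 2 ≤ Crest.CombinatoricsR.RandomGraph.gnpProb n
      (min 1 (2048 * Real.exp 50 * p * (1 + Real.logb 2 (H.edgeFinset.card : ℝ))))
      {G | H.IsContained G} := by
  classical
  set h := H.edgeFinset.card with hh
  have hhr : (0 : ℝ) < (h : ℝ) := by exact_mod_cast hH
  refine PP.s0076_of_scaled_spread n W H hW p hp0
    (fun t => 41 * max 1 (Real.log ((h : ℝ) / t)))
    (fun m => 41 * max 1 (Real.log (2 * (h : ℝ) / m))) ?_ ?_ ?_ ?_ ?_
  · intro t
    have : (1 : ℝ) ≤ max 1 (Real.log ((h : ℝ) / t)) := le_max_left _ _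
    positivity
  · intro m
    have : (1 : ℝ) ≤ max 1 (Real.log (2 * (h : ℝ) / m)) := le_max_left _ _
    positivity
  · intro m t hmt htm
    have ht1 : 1 ≤ t := by omega
    have htr : (0 : ℝ) < (t : ℝ) := by exact_mod_cast ht1
    have hmr : (0 : ℝ) < (m : ℝ) := by exact_mod_cast (lt_of_lt_of_le ht1 htm)
    have hmt' : (m : ℝ) ≤ 2 * (t : ℝ) := by exact_mod_cast hmt.le
    have hle : (h : ℝ) / t ≤ 2 * (h : ℝ) / m := by
      rw [div_le_div_iff₀ htr hmr]
      nlinarith
    have hlog : Real.log ((h : ℝ) / t) ≤ Real.log (2 * (h : ℝ) / m) :=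
      Real.log_le_log (by positivity) hle
    have := max_le_max (le_refl (1 : ℝ)) hlog
    linarith
  · exact sum_K_le h hH hsmall
  · intro T hT
    exact spread_of_hE n W H hW hH p hp0 hE T hT

end Crest.Agent.Helper68.S0076
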