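import Crest.Agent.Helper68.S0076.C

/-!
# S0076 log-spread lemma for group actions (helper68, assembly)

`logspread` : if every subset `A` of `H₀` has `stab A ≤ 2 |G| p^|A|` (feasibility), then every
nonempty `T` lies in at most a `(41 max(1, log(h/s)) p)^s` fraction of the translates of `H₀`
(`h = |H₀|`, `s = |T|`).  Insurance package for row 55: conditional, no S-file.
-/

set_option autoImplicit false

namespace Crest.Agent.Helper68.S0076

open Finset
open Crest.Agent.Helper48.S0076 (inj_smul card_filter_subset_smul)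
open scoped Pointwise

variable {G : Type*} {X : Type*} [Group G] [Fintype G] [Fintype X] [DecidableEq X] [MulAction G X]

/-- **Log-spread lemma** (abstract form of Theorem C'). -/
theorem logspread (H₀ : Finset X) (p : ℝ) (hp : 0 < p)
    (hfeas : ∀ A ⊆ H₀, (stab G A : ℝ) ≤ 2 * (Fintype.card G : ℝ) * p ^ A.card)
    (T : Finset X) (hT : T.Nonempty) :
    ((Finset.univ.filter (fun g : G => T ⊆ g • H₀)).card : ℝ)
      ≤ (Fintype.card G : ℝ) *
          (41 * max 1 (Real.log ((H₀.card : ℝ) / T.card)) * p) ^ T.card := by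
  classical
  rw [card_filter_subset_smul]
  have hmax1 : (1 : ℝ) ≤ max 1 (Real.log ((H₀.card : ℝ) / T.card)) := le_max_left _ _
  rcases Nat.eq_zero_or_pos (inj G T H₀) with h0 | hpos
  · rw [h0]
    simp only [Nat.cast_zero]
    positivity
  -- a translate of `T` inside `H₀`
  have hne : (Finset.univ.filter (fun g : G => g • T ⊆ H₀)).Nonempty := by
    apply Finset.card_pos.1
    exact hpos
  obtain ⟨g, hg⟩ := hne
  have hgT : g • T ⊆ H₀ := (Finset.mem_filter.1 hg).2
  set J := g • T with hJ
  have hJcard : J.card = T.card := Finset.card_smul_finset g T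
  have hJne : J.Nonempty := by
    rw [← Finset.card_pos, hJcard]
    exact Finset.card_pos.2 hT
  have hinjJ : inj G J H₀ = inj G T H₀ := inj_smul T H₀ g
  set s := T.card with hs
  set h := H₀.card with hh
  have hs1 : 1 ≤ s := Finset.card_pos.2 hT
  have hsh : s ≤ h := by
    have h1 := Finset.card_le_card hgT
    rw [hJcard] at h1
    exact h1
  have hsr : (0 : ℝ) < (s : ℝ) := by exact_mod_cast hs1
  have hhr : (0 : ℝ) < (h : ℝ) := by exact_mod_cast (lt_of_lt_of_le hs1 hsh)
  have hratio : (1 : ℝ) ≤ (h : ℝ) / s := by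
    rw [le_div_iff₀ hsr, one_mul]
    exact_mod_cast hsh
  set K := max 1 (Real.log ((h : ℝ) / s)) with hK
  have hK1 : 1 ≤ K := le_max_left _ _
  have hKpos : 0 < K := by linarith
  have hlogK : Real.log ((h : ℝ) / s) ≤ K := le_max_right _ _
  have hθ : 14.8 * K < 15 * K := by nlinarith
  have hc := cprime (G := G) H₀ p hp hfeas K (15 * K) hK1 hθ H₀ J (Finset.Subset.refl _) hgT hJne
  unfold Den at hc
  rw [hJcard, hinjJ] at hc
  -- bound the penalty factor by `e^s`
  have hpen : ((h : ℝ) / s) ^ ((s : ℝ) / K) ≤ Real.exp 1 ^ s := by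
    rw [Real.rpow_def_of_pos (lt_of_lt_of_le one_pos hratio), ← Real.exp_nat_mul, mul_one]
    apply Real.exp_le_exp.2
    have h1 : 0 ≤ Real.log ((h : ℝ) / s) := Real.log_nonneg hratio
    have h2 : Real.log ((h : ℝ) / s) * ((s : ℝ) / K) ≤ K * ((s : ℝ) / K) :=
      mul_le_mul_of_nonneg_right hlogK (by positivity)
    have h3 : K * ((s : ℝ) / K) = (s : ℝ) := by field_simp
    linarith
  have he : Real.exp 1 < 2.7182818286 := Real.exp_one_lt_d9
  have hGnn : (0 : ℝ) ≤ (Fintype.card G : ℝ) := by positivity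
  have hbase : 0 ≤ 15 * K * p := by positivity
  calc (inj G T H₀ : ℝ)
      ≤ (Fintype.card G : ℝ) * (15 * K * p) ^ s * ((h : ℝ) / s) ^ ((s : ℝ) / K) := hc
    _ ≤ (Fintype.card G : ℝ) * (15 * K * p) ^ s * Real.exp 1 ^ s :=
        mul_le_mul_of_nonneg_left hpen (by positivity)
    _ = (Fintype.card G : ℝ) * (15 * K * p * Real.exp 1) ^ s := by
        rw [mul_pow (15 * K * p) (Real.exp 1) s]; ring
    _ ≤ (Fintype.card G : ℝ) * (41 * K * p) ^ s := by
        apply mul_le_mul_of_nonneg_left _ hGnn
        apply pow_le_pow_left₀ (by positivity)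
        have : 15 * K * p * Real.exp 1 = (15 * Real.exp 1) * (K * p) := by ring
        rw [this]
        have h41 : 15 * Real.exp 1 ≤ 41 := by linarith
        have hKp : 0 ≤ K * p := by positivity
        calc 15 * Real.exp 1 * (K * p) ≤ 41 * (K * p) := mul_le_mul_of_nonneg_right h41 hKp
          _ = 41 * K * p := by ring

end Crest.Agent.Helper68.S0076
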