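import Crest.Agent.Helper68.S0076.DenseSplit

/-!
# S0076 modulo the MIDDLE regime (helper68; conditional glue, row 55)

Un-imported, conditional glue on top of the landed `DenseSplit.s0076_of_sparse`.

* `descFactorial_bound_of_pow_bound` (G2): a counting bound of the shape
  `inj(T,H) ≤ c^|T| n^{v_T}` with `c e² ≤ K p` gives the shape used by `s0076_of_sparse`,
  `inj(T,H) ≤ (K p)^|T| (n)_{v_T}`   (`n^v ≤ e^v (n)_v` and `v_T ≤ 2|T|`).
* `s0076_of_middle` (G1): the conclusion of S0076 from its hypotheses and TWO missing pieces: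
  `hlow` — the closure-type packing theorem in the regime `n p ≤ 1` (paper proof:
  `notes/s0076_helper68_closure.md`; Lean formalisation in progress by helper77), and
  `hmid` — the sparse counting bound for `k ≥ 2` (NOT proved anywhere).
* `s0076_of_middle'` : the same with `hlow` for `n p ≤ 2` and `hmid` only for `2 < n p`.

Neither `hlow` nor `hmid` is proved here: row 55 is NOT proved.
-/

set_option autoImplicit false
set_option linter.unusedSectionVars false

noncomputable section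

open Classical

namespace Crest.Agent.Helper68.S0076.Dense

open Finset Crest.CombinatoricsR.RandomGraph Crest.Agent.Helper52.PP

/-- (G2) `inj ≤ c^|T| n^v` with `c e² ≤ K p` implies `inj ≤ (K p)^|T| (n)_v`. -/
theorem descFactorial_bound_of_pow_bound {n : ℕ} {W : Type} [Fintype W] [DecidableEq W]
    (H : SimpleGraph W) [DecidableRel H.Adj] (p c K : ℝ) (hc : 0 ≤ c)
    (hcK : c * Real.exp 2 ≤ K * p) (T : Finset (EdgeSlot n))
    (h : (injCount H T : ℝ) ≤ c ^ T.card * (n : ℝ) ^ (vset T).card) :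
    (injCount H T : ℝ) ≤ (K * p) ^ T.card * (n.descFactorial (vset T).card : ℝ) := by
  have hv2 : (vset T).card ≤ 2 * T.card := Crest.Agent.Helper52.S0076.card_vset_le T
  have hvn : (vset T).card ≤ n := by
    have := Finset.card_le_univ (vset T)
    simpa using this
  have h1 : (n : ℝ) ^ (vset T).card
      ≤ Real.exp ((vset T).card : ℝ) * (n.descFactorial (vset T).card : ℝ) :=
    Crest.Agent.Helper84.S0076.pow_le_exp_mul_descFactorial n (vset T).card hvn
  have hd0 : (0 : ℝ) ≤ (n.descFactorial (vset T).card : ℝ) := Nat.cast_nonneg _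
  have h2 : Real.exp ((vset T).card : ℝ) ≤ Real.exp 2 ^ T.card := by
    rw [← Real.exp_nat_mul]
    apply Real.exp_le_exp.2
    have : ((vset T).card : ℝ) ≤ ((2 * T.card : ℕ) : ℝ) := by exact_mod_cast hv2
    push_cast at this
    linarith
  have hc2 : 0 ≤ c * Real.exp 2 := mul_nonneg hc (Real.exp_pos 2).le
  calc (injCount H T : ℝ) ≤ c ^ T.card * (n : ℝ) ^ (vset T).card := h
    _ ≤ c ^ T.card * (Real.exp 2 ^ T.card * (n.descFactorial (vset T).card : ℝ)) := by
        apply mul_le_mul_of_nonneg_left _ (pow_nonneg hc _)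
        exact le_trans h1 (mul_le_mul_of_nonneg_right h2 hd0)
    _ = (c * Real.exp 2) ^ T.card * (n.descFactorial (vset T).card : ℝ) := by
        rw [mul_pow, mul_assoc]
    _ ≤ (K * p) ^ T.card * (n.descFactorial (vset T).card : ℝ) := by
        apply mul_le_mul_of_nonneg_right _ hd0
        exact pow_le_pow_left₀ hc2 hcK _

/-- **S0076 modulo the middle regime, low part `n p ≤ 1`** (conditional glue; neither `hlow`
nor `hmid` is proved here). -/
theorem s0076_of_middle (n : ℕ) (hn : 2 ≤ n) (W : Type) [Fintype W] [DecidableEq W]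
    (H : SimpleGraph W) [DecidableRel H.Adj] (hW : Fintype.card W ≤ n)
    (hH : 1 ≤ H.edgeFinset.card) (p : ℝ) (hp0 : 0 ≤ p) (hp1 : p ≤ 1)
    (hE : ∀ F : H.Subgraph, (1 : ℝ) / 2 ≤ gnpExpect n p (fun G => (G.copyCount F.coe : ℝ)))
    (K₁ : ℝ) (hK₁ : 0 ≤ K₁) (hK₁e : K₁ * Real.exp 2 ≤ 8 * 10 ^ 22)
    (hlow : 0 < p → 8 * 10 ^ 22 * p < 1 → (n : ℝ) * p ≤ 1 →
      ∀ T : Finset (EdgeSlot n),
        (injCount H T : ℝ) ≤ (K₁ * p) ^ T.card * (n : ℝ) ^ (vset T).card)
    (hmid : 0 < p → 8 * 10 ^ 22 * p < 1 → ∀ k : ℕ, 2 ≤ k → (n : ℝ) * p ^ k ≤ 1 →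
      (∀ j < k, 1 < (n : ℝ) * p ^ j) →
      ¬ ((2 * n : ℝ) ≤ Real.exp (n * (C₀ * p) ^ k) ∧
          (k : ℝ) ^ 2 ≤ (C₀ * p) * ((n : ℝ) * (C₀ * p) ^ k) ^ 2) →
      ∀ T : Finset (EdgeSlot n), 2 ^ (3 * 10 ^ 21) ≤ T.card →
        (injCount H T : ℝ)
          ≤ (8 * 10 ^ 22 * p) ^ T.card * (n.descFactorial (vset T).card : ℝ)) :
    (1 : ℝ) / 2 ≤ gnpProb n
      (min 1 (2048 * Real.exp 50 * p * (1 + Real.logb 2 (H.edgeFinset.card : ℝ))))
      {G | H.IsContained G} := by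
  have hn1 : (1 : ℝ) < (n : ℝ) := by exact_mod_cast (by omega : 1 < n)
  refine s0076_of_sparse n hn W H hW hH p hp0 hp1 hE ?_
  intro hp hs k hk hj hnd
  rcases Nat.lt_or_ge k 2 with hk2 | hk2
  · have hk1 : k = 1 := by
      rcases Nat.eq_zero_or_pos k with h0 | h0
      · subst h0
        simp at hk
        linarith
      · omega
    subst hk1
    have hnp : (n : ℝ) * p ≤ 1 := by simpa using hk
    intro T _
    refine descFactorial_bound_of_pow_bound H p (K₁ * p) (8 * 10 ^ 22) (mul_nonneg hK₁ hp.le)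
      ?_ T (hlow hp hs hnp T)
    calc K₁ * p * Real.exp 2 = K₁ * Real.exp 2 * p := by ring
      _ ≤ 8 * 10 ^ 22 * p := mul_le_mul_of_nonneg_right hK₁e hp.le
  · exact hmid hp hs k hk2 hk hj hnd

/-- **S0076 modulo the middle regime, low part `n p ≤ 2`** (conditional glue; neither `hlow`
nor `hmid` is proved here). -/
theorem s0076_of_middle' (n : ℕ) (hn : 2 ≤ n) (W : Type) [Fintype W] [DecidableEq W]
    (H : SimpleGraph W) [DecidableRel H.Adj] (hW : Fintype.card W ≤ n)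
    (hH : 1 ≤ H.edgeFinset.card) (p : ℝ) (hp0 : 0 ≤ p) (hp1 : p ≤ 1)
    (hE : ∀ F : H.Subgraph, (1 : ℝ) / 2 ≤ gnpExpect n p (fun G => (G.copyCount F.coe : ℝ)))
    (K₁ : ℝ) (hK₁ : 0 ≤ K₁) (hK₁e : K₁ * Real.exp 2 ≤ 8 * 10 ^ 22)
    (hlow : 0 < p → 8 * 10 ^ 22 * p < 1 → (n : ℝ) * p ≤ 2 →
      ∀ T : Finset (EdgeSlot n),
        (injCount H T : ℝ) ≤ (K₁ * p) ^ T.card * (n : ℝ) ^ (vset T).card)
    (hmid : 0 < p → 8 * 10 ^ 22 * p < 1 → 2 < (n : ℝ) * p → ∀ k : ℕ, 2 ≤ k →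
      (n : ℝ) * p ^ k ≤ 1 → (∀ j < k, 1 < (n : ℝ) * p ^ j) →
      ¬ ((2 * n : ℝ) ≤ Real.exp (n * (C₀ * p) ^ k) ∧
          (k : ℝ) ^ 2 ≤ (C₀ * p) * ((n : ℝ) * (C₀ * p) ^ k) ^ 2) →
      ∀ T : Finset (EdgeSlot n), 2 ^ (3 * 10 ^ 21) ≤ T.card →
        (injCount H T : ℝ)
          ≤ (8 * 10 ^ 22 * p) ^ T.card * (n.descFactorial (vset T).card : ℝ)) :
    (1 : ℝ) / 2 ≤ gnpProb n
      (min 1 (2048 * Real.exp 50 * p * (1 + Real.logb 2 (H.edgeFinset.card : ℝ))))
      {G | H.IsContained G} := by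
  have hn1 : (1 : ℝ) < (n : ℝ) := by exact_mod_cast (by omega : 1 < n)
  refine s0076_of_sparse n hn W H hW hH p hp0 hp1 hE ?_
  intro hp hs k hk hj hnd
  rcases le_or_gt ((n : ℝ) * p) 2 with hnp | hnp
  · intro T _
    refine descFactorial_bound_of_pow_bound H p (K₁ * p) (8 * 10 ^ 22) (mul_nonneg hK₁ hp.le)
      ?_ T (hlow hp hs hnp T)
    calc K₁ * p * Real.exp 2 = K₁ * Real.exp 2 * p := by ring
      _ ≤ 8 * 10 ^ 22 * p := mul_le_mul_of_nonneg_right hK₁e hp.le
  · have hk2 : 2 ≤ k := by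
      by_contra hlt
      have hk01 : k = 0 ∨ k = 1 := by omega
      rcases hk01 with h0 | h1
      · subst h0
        simp at hk
        linarith
      · subst h1
        have : (n : ℝ) * p ≤ 1 := by simpa using hk
        linarith
    exact hmid hp hs hnp k hk2 hk hj hnd

end Crest.Agent.Helper68.S0076.Dense
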